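import Mathlib

namespace Vale.Agent.P105

/-- The finite set of algebraic units of level `n` and concentration ratio `k`:
the `η ∈ (0,1)` with `∑_{i ∈ A} η^i = 1` for some `A ⊆ {1,…,n}`, such that at least half of the
`2^n` sums `∑_{i<n} ±η^i` lie in at most `η^{-n}/k` cells `[s η^n, (s+1) η^n)`, `s ∈ ℤ`.
A sign choice is encoded by the set `w` of places carrying the sign `+`. -/
def unitSet (n k : ℕ) : Set ℝ :=
  {η | 0 < η ∧ η < 1 ∧ (∃ A ⊆ Finset.Icc 1 n, ∑ i ∈ A, η ^ i = 1) ∧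
    ∃ S : Finset ℤ, (k : ℝ) * S.card * η ^ n ≤ 1 ∧
      2 ^ n ≤ 2 * ((Finset.range n).powerset.filter fun w =>
        ⌊(∑ i ∈ Finset.range n, (if i ∈ w then (1 : ℝ) else -1) * η ^ i) / η ^ n⌋ ∈ S).card}

/-- One-sided approximation of `l` by the sets `unitSet n k`. -/
def ArithCrit (l : ℝ) : Prop :=
  ∀ k : ℕ, ∃ n : ℕ, ∃ η ∈ unitSet n k, l ≤ η ∧ η ≤ l + η ^ n

end Vale.Agent.P105
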