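import Vale.Agent.P105.Pure
import Vale.Agent.P105.DefsCrit

/-!
The arithmetic characterization of singular Bernoulli convolutions.
-/

open Real Finset Filter Topology MeasureTheory ProbabilityTheory

namespace Vale.Agent.P105

open Polynomial in
theorem unitSet_finite (n k : ℕ) : (unitSet n k).Finite := by
  have h : (⋃ A ∈ (Icc 1 n).powerset,
      ((∑ i ∈ A, X ^ i - 1 : ℝ[X]).roots.toFinset : Set ℝ)).Finite :=
    Set.Finite.biUnion (Finset.finite_toSet _) fun A _ => Finset.finite_toSet _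
  refine h.subset ?_
  rintro η ⟨-, -, ⟨A, hA, hsum⟩, -⟩
  refine Set.mem_biUnion (mem_coe.mpr (mem_powerset.mpr hA)) ?_
  simp only [mem_coe, Multiset.mem_toFinset]
  rw [mem_roots]
  · simp [eval_finsetSum, hsum]
  · intro h0
    have := congrArg (eval 0) h0
    simp only [eval_sub, eval_finsetSum, eval_pow, eval_X, eval_one, eval_zero] at this
    rw [sum_eq_zero] at this
    · norm_num at this
    · intro i hi
      have := (mem_Icc.mp (hA hi)).1
      exact zero_pow (by omega)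

open Polynomial in
theorem unitSet_unit (n k : ℕ) (η : ℝ) (h : η ∈ unitSet n k) :
    IsIntegral ℤ η ∧ IsIntegral ℤ η⁻¹ := by
  obtain ⟨h0, -, ⟨A, hA, hsum⟩, -⟩ := h
  have hne : A.Nonempty := by
    rw [nonempty_iff_ne_empty]; rintro rfl; simp at hsum
  have hd := max'_mem A hne
  set d := A.max' hne with hddef
  have hd1 : 1 ≤ d := (mem_Icc.mp (hA hd)).1
  have hi : IsIntegral ℤ η := by
    refine ⟨X ^ d + (∑ i ∈ A.erase d, X ^ i - 1), monic_X_pow_add ?_, ?_⟩
    · rw [← mem_degreeLT]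
      refine Submodule.sub_mem _ (Submodule.sum_mem _ fun i hi => ?_) ?_
      · rw [mem_degreeLT, degree_X_pow]
        have h1 := le_max' A i (mem_of_mem_erase hi)
        have h2 := ne_of_mem_erase hi
        exact_mod_cast lt_of_le_of_ne h1 h2
      · rw [mem_degreeLT, degree_one]
        exact_mod_cast hd1
    · rw [← aeval_def]
      simp only [map_add, map_sub, map_sum, map_pow, aeval_X, map_one]
      rw [← add_sum_erase _ _ hd] at hsum
      linarith
  refine ⟨hi, ?_⟩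
  have : η⁻¹ = ∑ i ∈ A, η ^ (i - 1) := by
    symm
    apply eq_inv_of_mul_eq_one_left
    rw [sum_mul, ← hsum]
    refine sum_congr rfl fun i hi => ?_
    have := (mem_Icc.mp (hA hi)).1
    rw [← pow_succ, Nat.sub_add_cancel this]
  rw [this]
  exact IsIntegral.sum _ fun i _ => hi.pow _

lemma exists_greedy {l : ℝ} (h0 : 1 / 2 < l) (h1 : l < 1) (n : ℕ) :
    ∃ A ⊆ Icc 1 (n + 1), 1 ∈ A ∧ ∑ i ∈ A, l ^ i ≤ 1 ∧ 1 - ∑ i ∈ A, l ^ i ≤ l ^ (n + 1) := by
  induction n with
  | zero => exact ⟨{1}, by simp, by simp, by simp; linarith, by simp; linarith⟩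
  | succ n ih =>
    obtain ⟨A, hA, h1A, ha, hb⟩ := ih
    have hsub : Icc 1 (n + 1) ⊆ Icc 1 (n + 1 + 1) := Icc_subset_Icc_right (by omega)
    by_cases hc : l ^ (n + 1 + 1) ≤ 1 - ∑ i ∈ A, l ^ i
    · have hn : n + 1 + 1 ∉ A := fun h => by have := (mem_Icc.mp (hA h)).2; omega
      refine ⟨insert (n + 1 + 1) A, insert_subset (by simp) (hA.trans hsub),
        mem_insert_of_mem h1A, ?_, ?_⟩
      · rw [sum_insert hn]; linarith
      · rw [sum_insert hn]
        have : l ^ (n + 1) ≤ 2 * l ^ (n + 1 + 1) := by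
          rw [pow_succ l (n + 1)]
          have : 0 < l ^ (n + 1) := pow_pos (by linarith) _
          nlinarith
        linarith
    · exact ⟨A, hA.trans hsub, h1A, ha, (not_le.mp hc).le⟩

lemma exists_unit_near {l : ℝ} (h0 : 1 / 2 < l) (h1 : l < 1) (n : ℕ) :
    ∃ η : ℝ, l ≤ η ∧ η ≤ l + l ^ (n + 1) ∧ ∃ A ⊆ Icc 1 (n + 1), ∑ i ∈ A, η ^ i = 1 := by
  obtain ⟨A, hA, h1A, ha, hb⟩ := exists_greedy h0 h1 n
  have hl0 : 0 < l := by linarith
  have ht : 0 < l ^ (n + 1) := pow_pos hl0 _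
  have hc : ContinuousOn (fun x : ℝ => ∑ i ∈ A, x ^ i) (Set.Icc l (l + l ^ (n + 1))) := by
    fun_prop
  have hup : 1 ≤ ∑ i ∈ A, (l + l ^ (n + 1)) ^ i := by
    have : ∑ i ∈ A.erase 1, l ^ i ≤ ∑ i ∈ A.erase 1, (l + l ^ (n + 1)) ^ i :=
      sum_le_sum fun i _ => pow_le_pow_left₀ hl0.le (by linarith) i
    rw [← add_sum_erase _ _ h1A] at hb ⊢
    simp only [pow_one] at hb ⊢
    linarith
  obtain ⟨η, hη, hη1⟩ := intermediate_value_Icc (by linarith) hc ⟨ha, hup⟩
  exact ⟨η, hη.1, hη.2, A, hA, hη1⟩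

theorem singular_of_crit {l : ℝ} (h0 : 0 < l) (h1 : l < 1) (h : ArithCrit l) :
    IsSingular (bernoulliConv l) := by
  obtain ⟨ρ, hρ⟩ : ∃ ρ : ℝ, ρ = (1 + l) / 2 := ⟨_, rfl⟩
  have hρ1 : ρ < 1 := by linarith
  have a1 : 0 < 1 - l := by linarith
  have a2 : 0 < 1 - ρ := by linarith
  obtain ⟨C, hC⟩ : ∃ C : ℝ, C = 1 / (1 - l) + 1 / ((1 - ρ) * (1 - l)) := ⟨_, rfl⟩
  have hC0 : 0 < C := by rw [hC]; positivity
  obtain ⟨N, hN, hN0, hN1⟩ := exists_null_pos (bernoulliConv l) (fun ζ hζ => by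
    obtain ⟨k, hk⟩ := exists_nat_ge (2 / (1 - l) + (2 * C + 1) / ζ)
    have hk1 : 2 / (1 - l) ≤ k := le_trans (by
      have : 0 ≤ (2 * C + 1) / ζ := by positivity
      linarith) hk
    have hk2 : (2 * C + 1) / ζ ≤ k := le_trans (by
      have : 0 ≤ 2 / (1 - l) := by positivity
      linarith) hk
    have hk0 : (0 : ℝ) < k := lt_of_lt_of_le (by positivity) hk1
    obtain ⟨n, η, ⟨hη0, hη1, -, S, hS, hW⟩, hlη, hηl⟩ := h k
    set W := (range n).powerset.filter fun w =>
      ⌊(∑ i ∈ range n, (if i ∈ w then (1 : ℝ) else -1) * η ^ i) / η ^ n⌋ ∈ S with hWdef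
    have hηn : 0 < η ^ n := pow_pos hη0 n
    have hSne : (1 : ℝ) ≤ S.card := by
      have hWne : W.Nonempty := by
        rw [← card_pos]
        have : 0 < 2 ^ n := by positivity
        omega
      obtain ⟨w, hw⟩ := hWne
      exact_mod_cast card_pos.mpr ⟨_, (mem_filter.mp hw).2⟩
    have hηρ : η ≤ ρ := by
      have b1 : k * η ^ n ≤ 1 := by
        have : k * η ^ n * 1 ≤ k * η ^ n * S.card := by gcongr
        linarith
      rw [div_le_iff₀ a1] at hk1
      have b2 : η ^ n * 2 ≤ η ^ n * (k * (1 - l)) := by gcongr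
      nlinarith
    refine ⟨⋃ s ∈ S, Set.Icc (η ^ n * (s - C)) (η ^ n * (s + 1 + C)),
      S.measurableSet_biUnion fun _ _ => measurableSet_Icc, ?_, ?_⟩
    · refine (measure_biUnion_finset_le _ _).trans ?_
      have : ∀ s ∈ S, volume (Set.Icc (η ^ n * (s - C)) (η ^ n * (s + 1 + C))) =
          ENNReal.ofReal (η ^ n * (2 * C + 1)) := by
        intro s _
        rw [Real.volume_Icc]; congr 1; ring
      rw [sum_congr rfl this, sum_const, nsmul_eq_mul, ← ENNReal.ofReal_natCast,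
        ← ENNReal.ofReal_mul (by positivity)]
      apply ENNReal.ofReal_le_ofReal
      rw [div_le_iff₀ hζ] at hk2
      calc (S.card : ℝ) * (η ^ n * (2 * C + 1)) ≤ S.card * (η ^ n * (k * ζ)) := by gcongr
        _ = (k * S.card * η ^ n) * ζ := by ring
        _ ≤ 1 * ζ := by gcongr
        _ = ζ := one_mul ζ
    · rw [bernoulliConv_apply l (S.measurableSet_biUnion fun _ _ => measurableSet_Icc)]
      have c1 : (1 / 2 : ENNReal) ≤ signP (⋃ w ∈ W, cyl n w) := by
        rw [signP_biUnion_cyl n W (filter_subset _ _)]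
        have c2 : (2 : ENNReal) ^ n ≤ 2 * W.card := by exact_mod_cast hW
        calc (1 / 2 : ENNReal) = (1 / 2) * (2 ^ n * (1 / 2) ^ n) := by
              rw [← mul_pow, one_div, ENNReal.mul_inv_cancel (by simp) (by simp), one_pow, mul_one]
          _ ≤ (1 / 2) * ((2 * W.card) * (1 / 2) ^ n) := by gcongr
          _ = ((1 / 2) * 2) * (W.card * (1 / 2) ^ n) := by ring
          _ = W.card * (1 / 2) ^ n := by
              rw [one_div, ENNReal.inv_mul_cancel (by simp) (by simp), one_mul]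
      refine c1.trans (measure_mono_ae ?_)
      filter_upwards [signP_ae] with ω hω hmem
      obtain ⟨w, hw, hc⟩ := Set.mem_iUnion₂.mp hmem
      have hclose := series_close h0 hlη hηρ hρ1 n hηl w ω hω hc
      rw [← hC, abs_le] at hclose
      set V := ∑ i ∈ range n, (if i ∈ w then (1 : ℝ) else -1) * η ^ i with hV
      refine Set.mem_iUnion₂.mpr ⟨⌊V / η ^ n⌋, (mem_filter.mp hw).2, ?_, ?_⟩
      · have := Int.floor_le (V / η ^ n)
        rw [le_div_iff₀ hηn] at this
        linarith [hclose.1]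
      · have := (Int.lt_floor_add_one (V / η ^ n)).le
        rw [div_le_iff₀ hηn] at this
        linarith [hclose.2])
  exact singular_of_null_pos h0 h1 N hN hN0 hN1

theorem crit_of_singular {l : ℝ} (h0 : 1 / 2 < l) (h1 : l < 1)
    (h : IsSingular (bernoulliConv l)) : ArithCrit l := by
  classical
  intro k
  have hl0 : 0 < l := by linarith
  obtain ⟨N, hN, hN0, hN1, -⟩ := h
  obtain ⟨K, hKN, hK, hK1⟩ := hN.exists_lt_isCompact (μ := bernoulliConv l) (r := 1 / 2)
    (by rw [hN1]; simp)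
  have hK0 : volume K = 0 := measure_mono_null hKN hN0
  have ht := tendsto_measure_cthickening_of_isCompact (μ := volume) hK
  rw [hK0] at ht
  have hpos : (0 : ENNReal) < ENNReal.ofReal (1 / (k + 1)) := by
    rw [ENNReal.ofReal_pos]; positivity
  obtain ⟨δ, hδ0, hδ⟩ : ∃ δ : ℝ, 0 < δ ∧
      volume (Metric.cthickening δ K) < ENNReal.ofReal (1 / (k + 1)) := by
    have := (ht.mono_left (nhdsWithin_le_nhds (s := Set.Ioi 0))).eventually (gt_mem_nhds hpos)
    obtain ⟨δ, h1, h2⟩ := (this.and self_mem_nhdsWithin).exists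
    exact ⟨δ, h2, h1⟩
  obtain ⟨ρ, hρ⟩ : ∃ ρ : ℝ, ρ = (1 + l) / 2 := ⟨_, rfl⟩
  have hρ1 : ρ < 1 := by linarith
  have hρ0 : 0 < ρ := by linarith
  have a1 : 0 < 1 - l := by linarith
  have a2 : 0 < 1 - ρ := by linarith
  obtain ⟨C, hC⟩ : ∃ C : ℝ, C = 1 / (1 - l) + 1 / ((1 - ρ) * (1 - l)) := ⟨_, rfl⟩
  have hC0 : 0 < C := by rw [hC]; positivity
  obtain ⟨m, hm⟩ := exists_pow_lt_of_lt_one
    (show 0 < min (δ / (C + 1)) ((1 - l) / 2) by positivity) hρ1
  have hm' : ρ ^ (m + 1) ≤ ρ ^ m := pow_le_pow_of_le_one hρ0.le hρ1.le (Nat.le_succ m)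
  have hm1 : ρ ^ (m + 1) ≤ δ / (C + 1) := hm'.trans (hm.le.trans (min_le_left _ _))
  have hm2 : ρ ^ (m + 1) ≤ (1 - l) / 2 := hm'.trans (hm.le.trans (min_le_right _ _))
  obtain ⟨η, hlη, hηl, A, hA, hsum⟩ := exists_unit_near h0 h1 m
  set n := m + 1 with hn
  have hη0 : 0 < η := by linarith
  have hlρ : l ^ n ≤ ρ ^ n := pow_le_pow_left₀ hl0.le (by linarith) n
  have hηρ : η ≤ ρ := by linarith
  have hηn : 0 < η ^ n := pow_pos hη0 n
  have hηl' : η ≤ l + η ^ n := by
    have := pow_le_pow_left₀ hl0.le hlη n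
    linarith
  have hηδ : (C + 1) * η ^ n ≤ δ := by
    have := (pow_le_pow_left₀ hη0.le hηρ n).trans hm1
    rwa [le_div_iff₀' (by positivity)] at this
  set V : Finset ℕ → ℝ := fun w => ∑ i ∈ range n, (if i ∈ w then (1 : ℝ) else -1) * η ^ i with hV
  set W₀ := (range n).powerset.filter fun w => ∃ ω : ℕ → ℝ, (∀ k, ω k = 1 ∨ ω k = -1) ∧
    ω ∈ cyl n w ∧ (∑' k, ω k * l ^ k) ∈ K with hW₀
  set S := W₀.image fun w => ⌊V w / η ^ n⌋ with hS
  refine ⟨n, η, ⟨hη0, by linarith, ⟨A, hA, hsum⟩, S, ?_, ?_⟩, hlη, hηl'⟩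
  · have hsub : (⋃ s ∈ S, Set.Ico (η ^ n * s) (η ^ n * (s + 1))) ⊆ Metric.cthickening δ K := by
      intro x hx
      obtain ⟨s, hs, hx1, hx2⟩ := Set.mem_iUnion₂.mp hx
      obtain ⟨w, hw, rfl⟩ := mem_image.mp hs
      obtain ⟨ω, hω, hc, hy⟩ := (mem_filter.mp hw).2
      have hclose := series_close hl0 hlη hηρ hρ1 n hηl' w ω hω hc
      rw [← hC, abs_le] at hclose
      refine Metric.mem_cthickening_of_dist_le x _ δ K hy ?_
      have f1 := Int.floor_le (V w / η ^ n)
      rw [le_div_iff₀ hηn] at f1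
      have f2 := (Int.lt_floor_add_one (V w / η ^ n)).le
      rw [div_le_iff₀ hηn] at f2
      rw [Real.dist_eq, abs_le]
      simp only [hV] at f1 f2 hx1 hx2
      constructor <;> linarith [hclose.1, hclose.2]
    have hvol : volume (⋃ s ∈ S, Set.Ico (η ^ n * s) (η ^ n * (s + 1))) =
        ENNReal.ofReal (S.card * η ^ n) := by
      rw [measure_biUnion_finset _ (fun _ _ => measurableSet_Ico)]
      · have : ∀ s ∈ S, volume (Set.Ico (η ^ n * s) (η ^ n * (s + 1))) =
            ENNReal.ofReal (η ^ n) := by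
          intro s _
          rw [Real.volume_Ico]; congr 1; ring
        rw [sum_congr rfl this, sum_const, nsmul_eq_mul, ← ENNReal.ofReal_natCast,
          ← ENNReal.ofReal_mul (by positivity)]
      · intro a _ b _ hab
        rw [Function.onFun, Set.disjoint_left]
        rintro x ⟨x1, x2⟩ ⟨x3, x4⟩
        have e1 : (a : ℝ) < b + 1 := lt_of_mul_lt_mul_left (x1.trans_lt x4) hηn.le
        have e2 : (b : ℝ) < a + 1 := lt_of_mul_lt_mul_left (x3.trans_lt x2) hηn.le
        have e3 : a < b + 1 := by exact_mod_cast e1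
        have e4 : b < a + 1 := by exact_mod_cast e2
        omega
    have h5 := (measure_mono hsub).trans_lt hδ
    rw [hvol, ENNReal.ofReal_lt_ofReal_iff (by positivity), lt_div_iff₀ (by positivity)] at h5
    have : 0 ≤ (S.card : ℝ) * η ^ n := by positivity
    nlinarith
  · have c1 : bernoulliConv l K ≤ signP (⋃ w ∈ W₀, cyl n w) := by
      rw [bernoulliConv_apply l hK.measurableSet]
      refine measure_mono_ae ?_
      filter_upwards [signP_ae] with ω hω hy
      refine Set.mem_iUnion₂.mpr ⟨(range n).filter fun i => ω i = 1, ?_, mem_cyl_self n ω hω⟩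
      exact mem_filter.mpr ⟨mem_powerset.mpr (filter_subset _ _), ω, hω, mem_cyl_self n ω hω, hy⟩
    rw [signP_biUnion_cyl n W₀ (filter_subset _ _)] at c1
    have c2 : (2 : ENNReal) ^ n ≤ 2 * W₀.card := by
      calc (2 : ENNReal) ^ n = (2 * 2 ^ n) * (1 / 2) := by
            rw [mul_comm 2, mul_assoc, one_div, ENNReal.mul_inv_cancel (by simp) (by simp), mul_one]
        _ ≤ (2 * 2 ^ n) * (W₀.card * (1 / 2) ^ n) := by gcongr; exact (hK1.le.trans c1)
        _ = 2 * W₀.card * (2 * (1 / 2)) ^ n := by rw [mul_pow]; ring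
        _ = 2 * W₀.card := by
            rw [one_div, ENNReal.mul_inv_cancel (by simp) (by simp), one_pow, mul_one]
    have c3 : 2 ^ n ≤ 2 * W₀.card := by exact_mod_cast c2
    refine c3.trans (Nat.mul_le_mul_left 2 (card_le_card ?_))
    intro w hw
    exact mem_filter.mpr ⟨(mem_filter.mp hw).1, mem_image_of_mem _ hw⟩

theorem characterization {l : ℝ} (h0 : 1 / 2 < l) (h1 : l < 1) :
    (IsSingular (bernoulliConv l) ↔ ArithCrit l) ∧
      ((bernoulliConv l).AbsolutelyContinuous volume ↔ ¬ ArithCrit l) := by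
  have hl0 : 0 < l := by linarith
  have h : IsSingular (bernoulliConv l) ↔ ArithCrit l :=
    ⟨crit_of_singular h0 h1, singular_of_crit hl0 h1⟩
  exact ⟨h, by rw [← h]; exact ac_iff_not_singular hl0 h1⟩

end Vale.Agent.P105
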