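import Mathlib

open MeasureTheory

namespace Vale.Agent.P105

/-- The law of one fair sign: mass `1/2` at `1` and mass `1/2` at `-1`. -/
noncomputable def signLaw : Measure ℝ :=
  (1 / 2 : ENNReal) • Measure.dirac (1 : ℝ) + (1 / 2 : ENNReal) • Measure.dirac (-1 : ℝ)

/-- The Bernoulli convolution: the law of `∑ ε n * l ^ n` for independent fair signs `ε n`. -/
noncomputable def bernoulliConv (l : ℝ) : Measure ℝ :=
  (Measure.infinitePi fun _ : ℕ => signLaw).map fun ε : ℕ → ℝ => ∑' n, ε n * l ^ n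

/-- A probability measure on the line is singular if it gives full mass to a Borel set of
Lebesgue measure zero. -/
def IsSingular (ν : Measure ℝ) : Prop :=
  ∃ N : Set ℝ, MeasurableSet N ∧ volume N = 0 ∧ ν N = 1 ∧ ν (Set.univ \ N) = 0

/-- Pisot numbers: real algebraic integers `> 1` whose other conjugates have modulus `< 1`. -/
def IsPisot (β : ℝ) : Prop :=
  1 < β ∧ IsIntegral ℤ β ∧ ∀ z ∈ (minpoly ℚ β).aroots ℂ, z ≠ (β : ℂ) → ‖z‖ < 1

/-- Salem numbers: real algebraic integers `> 1` whose other conjugates have modulus `≤ 1`,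
at least one of them having modulus exactly `1`. -/
def IsSalem (β : ℝ) : Prop :=
  1 < β ∧ IsIntegral ℤ β ∧ (∀ z ∈ (minpoly ℚ β).aroots ℂ, z ≠ (β : ℂ) → ‖z‖ ≤ 1) ∧
    ∃ z ∈ (minpoly ℚ β).aroots ℂ, ‖z‖ = 1

end Vale.Agent.P105
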