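import Mathlib

/-!
Distance to the nearest integer, geometric sums, a lower bound for the cosine,
and Dirichlet approximation on the unit circle.
-/

open Real Finset

namespace Vale.Agent.P105

/-- distance to the nearest integer -/
noncomputable def dz (x : ℝ) : ℝ := |x - round x|

lemma dz_nonneg (x : ℝ) : 0 ≤ dz x := abs_nonneg _

lemma dz_le (x : ℝ) (n : ℤ) : dz x ≤ |x - n| := round_le x n

lemma dz_le_abs (x : ℝ) : dz x ≤ |x| := by simpa using dz_le x 0

lemma dz_le_of (x y e : ℝ) (n : ℤ) (h : x = y + e + n) : dz x ≤ dz y + |e| := by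
  have h1 := dz_le x (round y + n)
  have h2 : x - ((round y + n : ℤ) : ℝ) = (y - round y) + e := by
    push_cast; rw [h]; ring
  rw [h2] at h1
  exact h1.trans (abs_add_le _ _)

lemma dz_le_of_neg (x y e : ℝ) (n : ℤ) (h : x = -y + e + n) : dz x ≤ dz y + |e| := by
  have h1 := dz_le x (-round y + n)
  have h2 : x - ((-round y + n : ℤ) : ℝ) = -(y - round y) + e := by
    push_cast; rw [h]; ring
  rw [h2] at h1
  refine h1.trans ((abs_add_le _ _).trans ?_)
  rw [abs_neg]; rfl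

lemma dz_sub_le (x y : ℝ) : dz (x - y) ≤ dz x + dz y := by
  have := dz_le_of (x - y) x (-(y - round y)) (-round y) (by push_cast; ring)
  rwa [abs_neg] at this

lemma dz_lt_half_of_isIntegral (x : ℝ) (hx : IsIntegral ℤ x) : dz x < 1 / 2 := by
  have h1 : dz x ≤ 1 / 2 := abs_sub_round x
  refine lt_of_le_of_ne h1 (fun h => ?_)
  have h2 : IsIntegral ℤ (x - (round x : ℝ)) := by
    refine hx.sub ?_
    exact isIntegral_algebraMap (R := ℤ) (A := ℝ) (x := round x)
  have h3 : IsIntegral ℤ ((1 : ℝ) / 2) := by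
    unfold dz at h
    rcases abs_eq (by norm_num : (0:ℝ) ≤ 1 / 2) |>.mp h with h | h
    · rwa [h] at h2
    · have := h2.neg
      rwa [h, neg_neg] at this
  have h4 : IsIntegral ℤ ((1 : ℚ) / 2) := by
    have : ((1 : ℝ) / 2) = algebraMap ℚ ℝ (1 / 2) := by simp
    rw [this] at h3
    exact (isIntegral_algebraMap_iff (algebraMap ℚ ℝ).injective).mp h3
  obtain ⟨y, hy⟩ := IsIntegrallyClosed.isIntegral_iff.mp h4
  have h5 : (2 * y : ℤ) = 1 := by
    have : (2 * (y : ℚ)) = 1 := by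
      have : (y : ℚ) = 1 / 2 := by simpa using hy
      rw [this]; norm_num
    exact_mod_cast this
  omega

lemma exists_cos_lower (μ : ℝ) (hμ : μ < 1 / 2) :
    ∃ K : ℝ, 0 ≤ K ∧ ∀ x : ℝ, dz x ≤ μ → exp (-(K * dz x ^ 2)) ≤ |cos (π * x)| := by
  by_cases h0 : μ < 0
  · exact ⟨0, le_rfl, fun x hx => absurd ((dz_nonneg x).trans hx) (not_le.mpr h0)⟩
  push Not at h0
  have hκ : 0 < cos (π * μ) := by
    apply cos_pos_of_mem_Ioo
    constructor
    · have : 0 ≤ π * μ := by positivity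
      linarith [pi_pos]
    · nlinarith [pi_pos]
  refine ⟨π ^ 2 / (2 * cos (π * μ)), by positivity, fun x hx => ?_⟩
  set δ := x - round x with hδ
  have hdz : dz x = |δ| := rfl
  have h1 : |cos (π * x)| = |cos (π * |δ|)| := by
    have : π * x = π * δ + (round x : ℤ) * π := by rw [hδ]; ring
    rw [this, cos_add_int_mul_pi, abs_mul, abs_zpow]
    simp only [abs_neg, abs_one, one_zpow, one_mul]
    rcases abs_choice δ with h | h
    · rw [h]
    · rw [h, mul_neg, cos_neg]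
  have h2 : cos (π * μ) ≤ cos (π * |δ|) := by
    apply cos_le_cos_of_nonneg_of_le_pi
    · positivity
    · nlinarith [pi_pos]
    · exact mul_le_mul_of_nonneg_left (hdz ▸ hx) pi_pos.le
  have h3 : 1 - (π * |δ|) ^ 2 / 2 ≤ cos (π * |δ|) := one_sub_sq_div_two_le_cos
  set c := cos (π * |δ|) with hc
  set κ := cos (π * μ) with hκdef
  have hcpos : 0 < c := lt_of_lt_of_le hκ h2
  rw [h1, abs_of_pos hcpos, hdz]
  set y := π ^ 2 / (2 * κ) * |δ| ^ 2 with hy
  have hy0 : 0 ≤ y := by positivity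
  have h4 : 1 + y ≤ exp y := by linarith [add_one_le_exp y]
  have h5 : κ * y = (π * |δ|) ^ 2 / 2 := by
    rw [hy]; field_simp
  have h6 : 1 ≤ c * (1 + y) := by nlinarith
  rw [exp_neg, inv_le_comm₀ (exp_pos _) hcpos]
  calc c⁻¹ ≤ 1 + y := by
        rw [inv_le_iff_one_le_mul₀' hcpos]; exact h6
    _ ≤ exp y := h4

/-- geometric sums over finite sets of integers bounded above -/
lemma sum_zpow_le {β : ℝ} (hβ : 1 < β) (s : Finset ℤ) (J : ℤ) (hs : ∀ j ∈ s, j ≤ J) :
    ∑ j ∈ s, β ^ j ≤ β ^ J * (β / (β - 1)) := by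
  have hβ0 : 0 < β := by linarith
  have hr : β⁻¹ < 1 := inv_lt_one_of_one_lt₀ hβ
  have hr0 : 0 ≤ β⁻¹ := by positivity
  have h1 : ∀ j ∈ s, β ^ j = β ^ J * (β⁻¹) ^ (J - j).toNat := by
    intro j hj
    have : ((J - j).toNat : ℤ) = J - j := Int.toNat_of_nonneg (by linarith [hs j hj])
    rw [inv_pow, ← zpow_natCast, this, ← zpow_neg, ← zpow_add₀ hβ0.ne']
    congr 1; ring
  rw [sum_congr rfl h1, ← mul_sum]
  refine mul_le_mul_of_nonneg_left ?_ (by positivity)
  have hinj : Set.InjOn (fun j : ℤ => (J - j).toNat) s := by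
    intro a ha b hb hab
    have h2 := hs a ha
    have h3 := hs b hb
    simp only at hab
    omega
  rw [← sum_image (f := fun k : ℕ => (β⁻¹) ^ k) hinj]
  have hsum := hasSum_geometric_of_lt_one hr0 hr
  have := sum_le_hasSum (s.image fun j : ℤ => (J - j).toNat) (fun i _ => by positivity) hsum
  refine this.trans (le_of_eq ?_)
  field_simp

lemma sum_zpow_neg_le {β : ℝ} (hβ : 1 < β) (s : Finset ℤ) (J : ℤ) (hs : ∀ j ∈ s, J ≤ j) :
    ∑ j ∈ s, β ^ (-j) ≤ β ^ (-J) * (β / (β - 1)) := by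
  have h := sum_zpow_le hβ (s.image fun j => -j) (-J) (by
    intro j hj
    obtain ⟨i, hi, rfl⟩ := mem_image.mp hj
    linarith [hs i hi])
  rwa [sum_image (fun a _ b _ hab => neg_injective hab)] at h

lemma norm_pow_sub_one_le' (z : ℂ) (hz : ‖z‖ = 1) (k : ℕ) : ‖z ^ k - 1‖ ≤ k * ‖z - 1‖ := by
  induction k with
  | zero => simp
  | succ k ih =>
    have : z ^ (k + 1) - 1 = z * (z ^ k - 1) + (z - 1) := by ring
    rw [this]
    refine (norm_add_le _ _).trans ?_
    rw [norm_mul, hz]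
    push_cast
    linarith

/-- Dirichlet's theorem on the unit circle -/
lemma exists_pow_near_one (α : ℂ) (hα : ‖α‖ = 1) (Q : ℝ) (hQ : 1 ≤ Q) :
    ∃ p : ℕ, 0 < p ∧ (p : ℝ) ≤ Q ∧ ‖α ^ p - 1‖ ≤ 7 / Q := by
  have hn : 0 < ⌊Q⌋₊ := Nat.floor_pos.mpr hQ
  obtain ⟨p, hp0, hpn, hp⟩ := Real.exists_nat_abs_mul_sub_round_le (Complex.arg α / (2 * π)) hn
  refine ⟨p, hp0, ?_, ?_⟩
  · exact (Nat.cast_le.mpr hpn).trans (Nat.floor_le (by linarith))
  · set ξ := Complex.arg α / (2 * π) with hξ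
    have hα' : α = Complex.exp (Complex.arg α * Complex.I) := by
      have := Complex.norm_mul_exp_arg_mul_I α
      rw [hα] at this
      simpa using this.symm
    have harg : Complex.arg α = 2 * π * ξ := by
      rw [hξ]; field_simp
    have h1 : α ^ p = Complex.exp (Complex.I * ((2 * π * (p * ξ - round (p * ξ)) : ℝ) : ℂ)) := by
      conv_lhs => rw [hα', ← Complex.exp_nat_mul, harg]
      rw [Complex.exp_eq_exp_iff_exists_int]
      refine ⟨round (p * ξ), ?_⟩
      push_cast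
      ring
    rw [h1]
    refine Real.norm_exp_I_mul_ofReal_sub_one_le.trans ?_
    rw [Real.norm_eq_abs, abs_mul, abs_of_pos (by positivity : (0:ℝ) < 2 * π)]
    have h2 : Q < ⌊Q⌋₊ + 1 := Nat.lt_floor_add_one Q
    have h3 : 1 / ((⌊Q⌋₊ : ℝ) + 1) ≤ 1 / Q := one_div_le_one_div_of_le (by linarith) h2.le
    have h4 : 2 * π ≤ 7 := by linarith [pi_lt_d2]
    calc 2 * π * |↑p * ξ - ↑(round (↑p * ξ))| ≤ 7 * (1 / Q) :=
          mul_le_mul h4 (hp.trans h3) (abs_nonneg _) (by norm_num)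
      _ = 7 / Q := by ring

end Vale.Agent.P105
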