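import Vale.Agent.P105.Step

/-!
Iterating the construction: the central conjugate shrinks like `exp (-3^m)`
while the energy grows only like `(5/2)^m`.
-/

open Real Finset Filter Topology

namespace Vale.Agent.P105

variable {β : ℝ} {α : ℂ} {A B : ℝ} {C : ℂ} {D : ℕ} {e ε μ : ℝ}

lemma zpow_neg_le_div (hβ : 1 < β) (n : ℕ) (hn : 0 < n) :
    β ^ (-(n : ℤ)) ≤ 1 / (n * (β - 1)) := by
  have h1 : 1 + n * (β - 1) ≤ β ^ n := by
    have := one_add_mul_le_pow (a := β - 1) (by linarith) n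
    simpa using this
  have hn' : (0 : ℝ) < n := by exact_mod_cast hn
  have h2 : 0 < (n : ℝ) * (β - 1) := mul_pos hn' (by linarith)
  rw [zpow_neg, zpow_natCast, ← one_div]
  exact one_div_le_one_div_of_le h2 (by linarith)

lemma St.step2 (hβ : 1 < β) (hα : ‖α‖ = 1) (h : St β α A B C D e ε μ) (l : ℕ) (Q : ℝ)
    (hQ : 1 ≤ Q) (hl : 0 < l) (h2 : 2 ≤ β ^ l)
    (hD : ∀ p : ℕ, 0 < p → ‖α ^ p - 1‖ ≤ 7 / Q → D ≤ l * p) :
    ∃ (A' B' : ℝ) (C' : ℂ) (D' : ℕ),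
      St β α A' B' C' D' (5 / 2 * e + 70 * (β / (β - 1)) + 150 * ε ^ 2 * (l * Q))
        (ε * (21 * l / Q)) (μ + 2 / (l * (β - 1)) + 2 * (ε * (21 * l / Q))) ∧
      (D' : ℝ) ≤ 4 * l * Q ∧
      ∀ Q' : ℝ, Q ≤ Q' → ∀ p : ℕ, 0 < p → ‖α ^ p - 1‖ ≤ 7 / Q' → D' ≤ (4 * l) * p := by
  classical
  have hex : ∃ p : ℕ, 0 < p ∧ ‖α ^ p - 1‖ ≤ 7 / Q := by
    obtain ⟨p, h1, _, h3⟩ := exists_pow_near_one α hα Q hQ
    exact ⟨p, h1, h3⟩
  set p := Nat.find hex with hp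
  obtain ⟨hp0, hp1⟩ : 0 < p ∧ ‖α ^ p - 1‖ ≤ 7 / Q := Nat.find_spec hex
  have hmin : ∀ r : ℕ, 0 < r → ‖α ^ r - 1‖ ≤ 7 / Q → p ≤ r := fun r h1 h3 =>
    Nat.find_min' hex ⟨h1, h3⟩
  have hpQ : (p : ℝ) ≤ Q := by
    obtain ⟨r, h1, h3, h4⟩ := exists_pow_near_one α hα Q hQ
    exact (Nat.cast_le.mpr (hmin r h1 h4)).trans h3
  have hDp := hD p hp0 hp1
  have hlp : l ≤ l * p := Nat.le_mul_of_pos_right l hp0
  have hη : ‖α ^ (3 * l * p) - 1‖ ≤ 21 * l / Q := by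
    rw [mul_comm (3 * l) p, pow_mul]
    refine (norm_pow_sub_one_le' _ (by rw [norm_pow, hα, one_pow]) _).trans ?_
    calc ((3 * l : ℕ) : ℝ) * ‖α ^ p - 1‖ ≤ ((3 * l : ℕ) : ℝ) * (7 / Q) :=
          mul_le_mul_of_nonneg_left hp1 (by positivity)
      _ = 21 * l / Q := by push_cast; ring
  have h2' : 2 ≤ β ^ (3 * l * p) := h2.trans (pow_le_pow_right₀ hβ.le (by nlinarith))
  have hst := h.step hβ hα (3 * l * p) (l * p) (by nlinarith) h2' hη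
  have hl' : (0 : ℝ) < l := by exact_mod_cast hl
  refine ⟨_, _, _, _, hst.mono ?_ le_rfl ?_, ?_, ?_⟩
  · have : ((3 * l * p : ℕ) : ℝ) ≤ 3 * (l * Q) := by
      push_cast
      nlinarith
    nlinarith [sq_nonneg ε]
  · have h3 : β ^ (-((l * p : ℕ) : ℤ)) ≤ β ^ (-(l : ℤ)) :=
      zpow_le_zpow_right₀ hβ.le (by omega)
    have h4 := zpow_neg_le_div hβ l hl
    have h5 : 2 / (l * (β - 1)) = 2 * (1 / (l * (β - 1))) := by ring
    linarith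
  · have h3 : D + 3 * l * p ≤ 4 * l * p := by nlinarith
    have h4 : ((D + 3 * l * p : ℕ) : ℝ) ≤ ((4 * l * p : ℕ) : ℝ) := Nat.cast_le.mpr h3
    refine h4.trans ?_
    push_cast
    nlinarith
  · intro Q' hQ' r hr0 hr
    have h3 : 7 / Q' ≤ 7 / Q := div_le_div_of_nonneg_left (by norm_num) (by linarith) hQ'
    have h4 := hmin r hr0 (hr.trans h3)
    nlinarith

lemma exists_margin (f : ℤ → ℝ) (a b : ℤ) (h1 : ∀ j, f j < 1 / 2)
    (h2 : ∀ j, j < a ∨ b < j → f j ≤ 3 / 8) : ∃ μ : ℝ, μ < 1 / 2 ∧ ∀ j, f j ≤ μ := by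
  by_cases hne : (Icc a b).Nonempty
  · obtain ⟨j₀, _, hj₀⟩ := exists_max_image (Icc a b) f hne
    refine ⟨max (f j₀) (3 / 8), max_lt (h1 j₀) (by norm_num), fun j => ?_⟩
    by_cases hj : j ∈ Icc a b
    · exact (hj₀ j hj).trans (le_max_left _ _)
    · refine (h2 j ?_).trans (le_max_right _ _)
      rw [mem_Icc] at hj; omega
  · refine ⟨3 / 8, by norm_num, fun j => h2 j ?_⟩
    by_contra hj
    exact hne ⟨j, by rw [mem_Icc]; omega⟩

lemma exists_two_le_pow (hβ : 1 < β) : ∃ k : ℕ, 0 < k ∧ 16 ≤ β ^ k := by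
  obtain ⟨k, hk⟩ := pow_unbounded_of_one_lt (16 : ℝ) hβ
  refine ⟨k + 1, Nat.succ_pos k, ?_⟩
  exact hk.le.trans (pow_le_pow_right₀ hβ.le (Nat.le_succ k))

lemma isIntegral_zpow (hi : IsIntegral ℤ β) (hi' : IsIntegral ℤ β⁻¹) (j : ℤ) :
    IsIntegral ℤ (β ^ j) := by
  rcases Int.eq_nat_or_neg j with ⟨n, rfl | rfl⟩
  · rw [zpow_natCast]; exact hi.pow n
  · rw [zpow_neg, zpow_natCast, ← inv_pow]; exact hi'.pow n

lemma exists_base (hβ : 1 < β) (hα : ‖α‖ = 1) (hi : IsIntegral ℤ β) (hi' : IsIntegral ℤ β⁻¹)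
    (htr : ∀ j : ℤ, ∃ n : ℤ, β ^ j + β ^ (-j) + 2 * (α ^ j).re = n) :
    ∃ (A B : ℝ) (C : ℂ) (D : ℕ) (e μ : ℝ), μ < 1 / 2 ∧ St β α A B C D e (1 / 8) μ := by
  have hβ0 : 0 < β := by linarith
  obtain ⟨k, hk0, hk⟩ := exists_two_le_pow hβ
  have hk' : (1 : ℝ) ≤ k := by exact_mod_cast hk0
  obtain ⟨p, hp0, -, hp⟩ := exists_pow_near_one α hα (112 * k) (by linarith)
  set q := p * k with hq
  have hq2 : 16 ≤ β ^ q := hk.trans (pow_le_pow_right₀ hβ.le (Nat.le_mul_of_pos_left k hp0))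
  have hη : ‖α ^ q - 1‖ ≤ 1 / 16 := by
    rw [hq, pow_mul]
    refine (norm_pow_sub_one_le' _ (by rw [norm_pow, hα, one_pow]) _).trans ?_
    calc (k : ℝ) * ‖α ^ p - 1‖ ≤ k * (7 / (112 * k)) :=
          mul_le_mul_of_nonneg_left hp (by positivity)
      _ = 1 / 16 := by field_simp; norm_num
  have res0 : ∀ j : ℤ, ∃ n : ℤ, 2 * β ^ j + 2 * β ^ (-j) + 2 * ((2 : ℂ) * α ^ j).re = 2 * n := by
    intro j
    obtain ⟨n, hn⟩ := htr j
    refine ⟨n, ?_⟩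
    have : ((2 : ℂ) * α ^ j).re = 2 * (α ^ j).re := by simp
    rw [this]; linarith
  have res := res_step hβ hα res0 q
  set A := 2 * (β ^ q - 1) with hA
  set B := 2 * ((β ^ q)⁻¹ - 1) with hB
  set C := (2 : ℂ) * (α ^ q - 1) with hC
  have hCn : ‖C‖ ≤ 1 / 8 := by
    rw [hC, norm_mul]; simp only [Complex.norm_ofNat]; linarith
  have hApos : 0 < A := by rw [hA]; linarith
  have hAhi : |A| ≤ 2 * β ^ q := by rw [abs_of_pos hApos, hA]; linarith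
  have hBhi : |B| ≤ 2 := by
    have h1 : 0 < (β ^ q)⁻¹ := by positivity
    have h3 : (β ^ q)⁻¹ ≤ 1 := inv_le_one_of_one_le₀ (by linarith)
    rw [hB, abs_le]; constructor <;> linarith
  have two_int : IsIntegral ℤ (2 : ℝ) := by
    simpa using isIntegral_algebraMap (R := ℤ) (A := ℝ) (x := 2)
  have hAi : IsIntegral ℤ A := two_int.mul ((hi.pow q).sub isIntegral_one)
  have hBi : IsIntegral ℤ B := by
    rw [hB, ← inv_pow]
    exact two_int.mul ((hi'.pow q).sub isIntegral_one)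
  have hsmall : β ^ (-(k : ℤ)) ≤ 1 / 16 := by
    rw [zpow_neg, zpow_natCast, ← one_div]
    exact one_div_le_one_div_of_le (by norm_num) hk
  obtain ⟨μ, hμ, hmar⟩ := exists_margin
    (fun j => max (dz (A * β ^ j)) (dz (B * β ^ (-j)))) (-(q : ℤ) - k) k
    (fun j => max_lt (dz_lt_half_of_isIntegral _ (hAi.mul (isIntegral_zpow hi hi' j)))
      (dz_lt_half_of_isIntegral _ (hBi.mul (isIntegral_zpow hi hi' (-j)))))
    (by
      intro j hj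
      rcases hj with hj | hj
      · have h1 := absU_le hβ hAhi j
        have h3 : β ^ ((q : ℤ) + j) ≤ β ^ (-(k : ℤ)) := zpow_le_zpow_right₀ hβ.le (by omega)
        have h4 := dz_le_abs (A * β ^ j)
        have h5 := dzV_le_dzU hα res j
        exact max_le (by linarith) (by linarith)
      · have h1 := absV_le hβ hBhi j
        have h3 : β ^ (-j) ≤ β ^ (-(k : ℤ)) := zpow_le_zpow_right₀ hβ.le (by omega)
        have h4 := dz_le_abs (B * β ^ (-j))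
        have h5 := dzU_le_dzV hα res j
        exact max_le (by linarith) (by linarith))
  refine ⟨A, B, C, q, 4 * (β ^ q) ^ 2 * (β / (β - 1)), μ, hμ, res, ?_, hAhi, hBhi, hCn,
    fun j => (le_max_left _ _).trans (hmar j), fun j => (le_max_right _ _).trans (hmar j), ?_⟩
  · rw [abs_of_pos hApos, hA]; linarith
  · intro s hs
    have h1 : ∑ j ∈ s, dz (A * β ^ j) ^ 2 ≤ ∑ j ∈ s, 4 * (β ^ q) ^ 2 * β ^ j := by
      refine sum_le_sum fun j hj => ?_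
      have h2 := (dz_le_abs (A * β ^ j)).trans (absU_le hβ hAhi j)
      rw [zpow_add₀ hβ0.ne', zpow_natCast] at h2
      refine (pow_le_pow_left₀ (dz_nonneg _) h2 2).trans ?_
      have h3 : β ^ j ≤ 1 := zpow_le_one_of_nonpos₀ hβ.le (hs j hj)
      have h4 : 0 < β ^ j := zpow_pos hβ0 j
      have h5 : (2 * (β ^ q * β ^ j)) ^ 2 = 4 * (β ^ q) ^ 2 * (β ^ j * β ^ j) := by ring
      rw [h5]
      refine mul_le_mul_of_nonneg_left ?_ (by positivity)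
      nlinarith
    rw [← mul_sum] at h1
    refine h1.trans (mul_le_mul_of_nonneg_left ?_ (by positivity))
    simpa using sum_zpow_le hβ s 0 hs

lemma iterate (hβ : 1 < β) (hα : ‖α‖ = 1) (L : ℕ) (hL : 0 < L) (h2 : 2 ≤ β ^ L) (u E μ : ℝ)
    (hu : 1 ≤ u)
    (h0 : ∃ (A B : ℝ) (C : ℂ) (D : ℕ),
      St β α A B C D (E - (70 * (β / (β - 1)) + 15000)) (1 / (10 * L * u))
        (μ - (4 / (β - 1) + 2) / L) ∧
      ∀ p : ℕ, 0 < p → ‖α ^ p - 1‖ ≤ 7 / (100 * L * u ^ 2) → D ≤ L * p) (m : ℕ) :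
    ∃ (A B : ℝ) (C : ℂ) (D : ℕ),
      St β α A B C D (E * (5 / 2) ^ m - (70 * (β / (β - 1)) + 15000))
        (1 / (10 * (4 ^ m * L : ℕ) * u ^ (3 ^ m)))
        (μ - (4 / (β - 1) + 2) / (4 ^ m * L : ℕ)) ∧
      ∀ p : ℕ, 0 < p → ‖α ^ p - 1‖ ≤ 7 / (100 * (4 ^ m * L : ℕ) * (u ^ (3 ^ m)) ^ 2) →
        D ≤ (4 ^ m * L) * p := by
  induction m with
  | zero => simpa using h0
  | succ m ih =>
    obtain ⟨A, B, C, D, hst, hD⟩ := ih
    set l : ℕ := 4 ^ m * L with hl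
    have hl0 : 0 < l := by positivity
    have hl1 : (1 : ℝ) ≤ l := by exact_mod_cast hl0
    set v : ℝ := u ^ (3 ^ m) with hv
    have hv1 : 1 ≤ v := one_le_pow₀ hu
    have hv3 : u ^ (3 ^ (m + 1)) = v ^ 3 := by rw [hv, ← pow_mul, pow_succ]
    have hl4 : 4 ^ (m + 1) * L = 4 * l := by rw [hl]; ring
    have hQ : (1 : ℝ) ≤ 100 * l * v ^ 2 := by nlinarith [one_le_pow₀ (n := 2) hv1]
    have h2l : 2 ≤ β ^ l := h2.trans (pow_le_pow_right₀ hβ.le (Nat.le_mul_of_pos_left L (by positivity)))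
    obtain ⟨A', B', C', D', hst', -, hD'⟩ := hst.step2 hβ hα l _ hQ hl0 h2l hD
    have hG : 0 < β / (β - 1) := div_pos (by linarith) (by linarith)
    have hε : 1 / (10 * l * v) * (21 * l / (100 * l * v ^ 2)) ≤ 1 / (10 * (4 * l) * v ^ 3) := by
      rw [div_mul_div_comm, div_le_div_iff₀ (by positivity) (by positivity)]
      have : 0 < (l : ℝ) ^ 2 * v ^ 3 := by positivity
      nlinarith
    refine ⟨A', B', C', D', hst'.mono ?_ ?_ ?_, ?_⟩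
    · have h3 : 150 * (1 / (10 * l * v)) ^ 2 * (l * (100 * l * v ^ 2)) = 150 := by
        field_simp; norm_num
      rw [h3, pow_succ]
      linarith
    · rw [hv3, hl4]; push_cast; exact hε
    · rw [hl4]; push_cast
      have h3 : 1 / (10 * (4 * (l : ℝ)) * v ^ 3) ≤ 1 / (2 * l) := by
        apply one_div_le_one_div_of_le (by positivity)
        nlinarith [one_le_pow₀ (n := 3) hv1]
      have hb : 0 < β - 1 := by linarith
      have h4 : 2 / (l * (β - 1)) + 2 * (1 / (2 * l)) ≤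
          (4 / (β - 1) + 2) / l - (4 / (β - 1) + 2) / (4 * l) := by
        have h5 : (4 / (β - 1) + 2) / l - (4 / (β - 1) + 2) / (4 * l) -
            (2 / (l * (β - 1)) + 2 * (1 / (2 * l))) = (1 / (β - 1) + 1 / 2) / l := by
          field_simp; ring
        have h6 : 0 ≤ (1 / (β - 1) + 1 / 2) / l := by positivity
        linarith
      linarith
    · rw [hv3, hl4]
      apply hD'
      push_cast
      have h3 : v ^ 2 ≤ (v ^ 3) ^ 2 := by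
        rw [← pow_mul v 3 2]; exact pow_le_pow_right₀ hv1 (show 2 ≤ 3 * 2 by norm_num)
      nlinarith [sq_nonneg v]

lemma exists_index (c K ζ : ℝ) (hc : 0 < c) (hζ : 0 < ζ) :
    ∃ m : ℕ, c * 4 ^ m * exp (K * (5 / 2) ^ m) ≤ ζ * exp (3 ^ m) := by
  have h1 : Tendsto (fun m : ℕ => ((6 : ℝ) / 5) ^ m) atTop atTop :=
    tendsto_pow_atTop_atTop_of_one_lt (by norm_num)
  have h2 : Tendsto (fun m : ℕ => ((5 : ℝ) / 2) ^ m) atTop atTop :=
    tendsto_pow_atTop_atTop_of_one_lt (by norm_num)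
  obtain ⟨m, hm1, hm2⟩ := ((h1.eventually_ge_atTop (K + 3)).and
    (h2.eventually_ge_atTop (log (c / ζ)))).exists
  refine ⟨m, ?_⟩
  set y : ℝ := (5 / 2) ^ m with hy
  have hy0 : 0 < y := by positivity
  have h3 : (3 : ℝ) ^ m = (6 / 5) ^ m * y := by rw [hy, ← mul_pow]; norm_num
  have h4 : (m : ℝ) ≤ y := by
    have := one_add_mul_le_pow (a := (3 : ℝ) / 2) (by norm_num) m
    have h5 : (1 : ℝ) + 3 / 2 = 5 / 2 := by norm_num
    rw [h5] at this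
    have h6 : (0 : ℝ) ≤ m := Nat.cast_nonneg m
    linarith
  have h5 : (4 : ℝ) ^ m ≤ exp (2 * y) := by
    have h6 : (4 : ℝ) ≤ exp 2 := by
      have := add_one_le_exp (1 : ℝ)
      have h7 : exp 2 = exp 1 * exp 1 := by rw [← exp_add]; norm_num
      nlinarith
    calc (4 : ℝ) ^ m ≤ (exp 2) ^ m := pow_le_pow_left₀ (by norm_num) h6 m
      _ = exp (2 * m) := by rw [← exp_nat_mul]; ring_nf
      _ ≤ exp (2 * y) := exp_le_exp.mpr (by linarith)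
  have h6 : c ≤ ζ * exp y := by
    have h7 : c / ζ ≤ exp y := by
      rw [← exp_log (div_pos hc hζ)]; exact exp_le_exp.mpr hm2
    rwa [div_le_iff₀' hζ] at h7
  calc c * 4 ^ m * exp (K * y) ≤ (ζ * exp y) * exp (2 * y) * exp (K * y) := by gcongr
    _ = ζ * exp ((K + 3) * y) := by
        rw [mul_assoc, mul_assoc, ← exp_add, ← exp_add]; ring_nf
    _ ≤ ζ * exp (3 ^ m) := by
        rw [h3]; gcongr

lemma exists_level0 (hβ : 1 < β) (hα : ‖α‖ = 1) (hi : IsIntegral ℤ β) (hi' : IsIntegral ℤ β⁻¹)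
    (htr : ∀ j : ℤ, ∃ n : ℤ, β ^ j + β ^ (-j) + 2 * (α ^ j).re = n) :
    ∃ (L : ℕ) (u E μ : ℝ), 0 < L ∧ 2 ≤ β ^ L ∧ 3 ≤ u ∧ μ < 1 / 2 ∧
      ∃ (A B : ℝ) (C : ℂ) (D : ℕ),
      St β α A B C D (E - (70 * (β / (β - 1)) + 15000)) (1 / (10 * L * u))
        (μ - (4 / (β - 1) + 2) / L) ∧
      ∀ p : ℕ, 0 < p → ‖α ^ p - 1‖ ≤ 7 / (100 * L * u ^ 2) → D ≤ L * p := by
  obtain ⟨A, B, C, D, e, μ₀, hμ₀, hst⟩ := exists_base hβ hα hi hi' htr
  obtain ⟨k, hk0, hk⟩ := exists_two_le_pow hβ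
  have hb : 0 < β - 1 := by linarith
  obtain ⟨c', hc'⟩ : ∃ c' : ℝ, c' = 4 / (β - 1) + 2 := ⟨_, rfl⟩
  have hc'0 : 0 < c' := by rw [hc']; positivity
  obtain ⟨μ, hμ⟩ : ∃ μ : ℝ, μ = (μ₀ + 1 / 2) / 2 := ⟨_, rfl⟩
  have hgap : 0 < μ - μ₀ := by rw [hμ]; linarith
  obtain ⟨N, hN⟩ := exists_nat_ge (c' / (μ - μ₀))
  obtain ⟨L₀, hL₀⟩ : ∃ L₀ : ℕ, L₀ = D + k + N := ⟨_, rfl⟩
  have hL₀0 : 0 < L₀ := by omega
  have hL₀1 : (1 : ℝ) ≤ L₀ := by exact_mod_cast hL₀0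
  have h2 : 2 ≤ β ^ L₀ := by
    have : β ^ k ≤ β ^ L₀ := pow_le_pow_right₀ hβ.le (by omega)
    linarith
  obtain ⟨u, hu⟩ : ∃ u : ℝ, u = L₀ + 3 := ⟨_, rfl⟩
  have hu1 : 1 ≤ u := by linarith
  have hQ : (1 : ℝ) ≤ 100 * (4 * L₀ : ℕ) * u ^ 2 := by
    push_cast; nlinarith [one_le_pow₀ (n := 2) hu1]
  obtain ⟨A', B', C', D', hst', -, hD'⟩ := hst.step2 hβ hα L₀ _ hQ hL₀0 h2
    (fun p hp _ => (show D ≤ L₀ by omega).trans (Nat.le_mul_of_pos_right L₀ hp))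
  have hε : 1 / 8 * (21 * L₀ / (100 * (4 * L₀ : ℕ) * u ^ 2)) ≤ 1 / (10 * (4 * L₀ : ℕ) * u) := by
    push_cast
    rw [div_mul_div_comm, div_le_div_iff₀ (by positivity) (by positivity)]
    have h3 : (L₀ : ℝ) ≤ u := by linarith
    have h4 : 0 < (L₀ : ℝ) * u := by positivity
    nlinarith
  have h4L : 0 < 4 * L₀ := by omega
  have h24 : 2 ≤ β ^ (4 * L₀) := h2.trans (pow_le_pow_right₀ hβ.le (by omega))
  refine ⟨4 * L₀, u, (5 / 2 * e + 70 * (β / (β - 1)) + 150 * (1 / 8) ^ 2 *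
    (L₀ * (100 * (4 * L₀ : ℕ) * u ^ 2))) + (70 * (β / (β - 1)) + 15000), μ, h4L, h24,
    by linarith, by linarith, A', B', C', D', hst'.mono (by linarith) hε ?_, hD' _ le_rfl⟩
  have h3 : 1 / (10 * ((4 * L₀ : ℕ) : ℝ) * u) ≤ 1 / (2 * L₀) := by
    apply one_div_le_one_div_of_le (by positivity)
    push_cast; nlinarith
  have h4 : 2 / (L₀ * (β - 1)) + 2 * (1 / (2 * L₀)) ≤ c' / L₀ - c' / (4 * L₀ : ℕ) := by
    have h5 : c' / L₀ - c' / (4 * L₀ : ℕ) -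
        (2 / (L₀ * (β - 1)) + 2 * (1 / (2 * L₀))) = (1 / (β - 1) + 1 / 2) / L₀ := by
      rw [hc']; push_cast; field_simp; ring
    have h6 : 0 ≤ (1 / (β - 1) + 1 / 2) / L₀ := by positivity
    linarith
  have h5 : c' / L₀ ≤ μ - μ₀ := by
    rw [div_le_iff₀ (by positivity)]
    rw [div_le_iff₀ hgap] at hN
    have h6 : (N : ℝ) ≤ L₀ := by exact_mod_cast (show N ≤ L₀ by omega)
    nlinarith
  rw [← hc']
  linarith

lemma last_step (hβ : 1 < β) (hα : ‖α‖ = 1) (l : ℕ) (hl0 : 0 < l) (h2l : 2 ≤ β ^ l)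
    (v x : ℝ) (hv1 : 1 ≤ v)
    (hst : St β α A B C D (x - (70 * (β / (β - 1)) + 15000)) (1 / (10 * l * v))
      (μ - (4 / (β - 1) + 2) / l))
    (hD : ∀ p : ℕ, 0 < p → ‖α ^ p - 1‖ ≤ 7 / (100 * l * v ^ 2) → D ≤ l * p) :
    ∃ (A B : ℝ) (C : ℂ) (D : ℕ) (ε : ℝ), St β α A B C D (5 / 2 * x) ε μ ∧
        ε * (D + 1) ≤ 11 * l / v := by
  have hb : 0 < β - 1 := by linarith
  have hl1 : (1 : ℝ) ≤ l := by exact_mod_cast hl0
  have hQ₁ : (1 : ℝ) ≤ 100 * l * v ^ 2 := by nlinarith [one_le_pow₀ (n := 2) hv1]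
  obtain ⟨A₂, B₂, C₂, D₂, hst₂, hD₂, -⟩ := hst.step2 hβ hα l _ hQ₁ hl0 h2l hD
  have hG0 : 0 < β / (β - 1) := div_pos (by linarith) hb
  have hε₂ : 1 / (10 * l * v) * (21 * l / (100 * l * v ^ 2)) ≤ 1 / (2 * l) := by
    rw [div_mul_div_comm, div_le_div_iff₀ (by positivity) (by positivity)]
    have h3 : (1 : ℝ) ≤ v ^ 3 := one_le_pow₀ hv1
    have h4 : 0 < (l : ℝ) ^ 2 := by positivity
    nlinarith
  refine ⟨A₂, B₂, C₂, D₂, _, hst₂.mono ?_ le_rfl ?_, ?_⟩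
  · have h3 : 150 * (1 / (10 * l * v)) ^ 2 * (l * (100 * l * v ^ 2)) = 150 := by
      field_simp; norm_num
    rw [h3]
    linarith
  · have h4 : 2 / (l * (β - 1)) + 2 * (1 / (2 * l)) ≤ (4 / (β - 1) + 2) / l := by
      have h5 : (4 / (β - 1) + 2) / l - (2 / (l * (β - 1)) + 2 * (1 / (2 * l))) =
          (2 / (β - 1) + 1) / l := by
        field_simp; ring
      have h6 : 0 ≤ (2 / (β - 1) + 1) / l := by positivity
      linarith
    linarith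
  · have h5 : (D₂ : ℝ) + 1 ≤ 5 * l * (100 * l * v ^ 2) := by nlinarith
    calc 1 / (10 * l * v) * (21 * l / (100 * l * v ^ 2)) * (D₂ + 1)
        ≤ 1 / (10 * l * v) * (21 * l / (100 * l * v ^ 2)) * (5 * l * (100 * l * v ^ 2)) := by
          gcongr
      _ = 21 / 2 * l / v := by field_simp; norm_num
      _ ≤ 11 * l / v := by gcongr; norm_num

lemma exists_good (hβ : 1 < β) (hα : ‖α‖ = 1) (hi : IsIntegral ℤ β) (hi' : IsIntegral ℤ β⁻¹)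
    (htr : ∀ j : ℤ, ∃ n : ℤ, β ^ j + β ^ (-j) + 2 * (α ^ j).re = n) :
    ∃ μ : ℝ, μ < 1 / 2 ∧ ∀ K ζ : ℝ, 0 < ζ →
      ∃ (A B : ℝ) (C : ℂ) (D : ℕ) (e ε : ℝ), St β α A B C D e ε μ ∧
        ε * (D + 1) * exp (K * e) ≤ ζ := by
  obtain ⟨L, u, E, μ, hL, h2, hu, hμ, h0⟩ := exists_level0 hβ hα hi hi' htr
  have hu1 : 1 ≤ u := by linarith
  have hit := iterate hβ hα L hL h2 u E μ hu1 h0
  refine ⟨μ, hμ, fun K ζ hζ => ?_⟩
  obtain ⟨m, hm⟩ := exists_index (11 * L) (K * (5 / 2 * E)) ζ (by positivity) hζ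
  obtain ⟨A₁, B₁, C₁, D₁, hst₁, hD₁⟩ := hit m
  have hv1 : 1 ≤ u ^ (3 ^ m) := one_le_pow₀ hu1
  have h2l : 2 ≤ β ^ (4 ^ m * L) :=
    h2.trans (pow_le_pow_right₀ hβ.le (Nat.le_mul_of_pos_left _ (by positivity)))
  obtain ⟨A₂, B₂, C₂, D₂, ε, hst₂, hD₂⟩ := last_step hβ hα (4 ^ m * L) (by positivity) h2l _ _
    hv1 hst₁ hD₁
  refine ⟨A₂, B₂, C₂, D₂, _, ε, hst₂, ?_⟩
  have h3 : exp (3 ^ m) ≤ u ^ (3 ^ m) := by
    have h5 : exp 1 ≤ u := by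
      have := exp_one_lt_d9
      linarith
    calc exp (3 ^ m) = (exp 1) ^ (3 ^ m) := by rw [← exp_nat_mul]; push_cast; ring_nf
      _ ≤ u ^ (3 ^ m) := pow_le_pow_left₀ (exp_pos 1).le h5 _
  calc ε * (D₂ + 1) * exp (K * (5 / 2 * (E * (5 / 2) ^ m)))
      ≤ 11 * (4 ^ m * L : ℕ) / u ^ (3 ^ m) * exp (K * (5 / 2 * (E * (5 / 2) ^ m))) := by gcongr
    _ = (11 * L * 4 ^ m * exp (K * (5 / 2 * E) * (5 / 2) ^ m)) / u ^ (3 ^ m) := by
        have : K * (5 / 2 * (E * (5 / 2) ^ m)) = K * (5 / 2 * E) * (5 / 2) ^ m := by ring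
        rw [this]; push_cast; ring
    _ ≤ (ζ * exp (3 ^ m)) / u ^ (3 ^ m) := by gcongr
    _ ≤ ζ := by
        rw [div_le_iff₀ (by linarith)]; gcongr

end Vale.Agent.P105
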