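import Vale.Agent.P105.Test
import Vale.Agent.P105.Defs

/-!
Quartic Salem numbers give singular Bernoulli convolutions.
-/

open Real Finset Filter Topology MeasureTheory ProbabilityTheory Polynomial

namespace Vale.Agent.P105

instance : IsProbabilityMeasure signLaw := ⟨by
  simp [signLaw, ENNReal.inv_two_add_inv_two]⟩

lemma signLaw_ae : ∀ᵐ x ∂signLaw, x = 1 ∨ x = -1 := by
  unfold signLaw
  rw [ae_add_measure_iff]
  constructor <;> apply Measure.ae_smul_measure <;> simp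

lemma signLaw_mean : ∫ x, x ∂signLaw = 0 := by
  unfold signLaw
  rw [integral_add_measure, integral_smul_measure, integral_smul_measure]
  · simp
  · exact (integrable_dirac (by simp)).smul_measure (by simp)
  · exact (integrable_dirac (by simp)).smul_measure (by simp)

theorem singular_of_trace' {β : ℝ} {α : ℂ}
    (hβ : 1 < β) (hα : ‖α‖ = 1) (hi : IsIntegral ℤ β) (hi' : IsIntegral ℤ β⁻¹)
    (htr : ∀ j : ℤ, ∃ n : ℤ, β ^ j + β ^ (-j) + 2 * (α ^ j).re = n) :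
    IsSingular (bernoulliConv β⁻¹) := by
  have hmp := fun k : ℕ => measurePreserving_eval_infinitePi (fun _ : ℕ => signLaw) k
  obtain ⟨N, hN, hN0, hN1⟩ := singular_of_trace
    (P := Measure.infinitePi fun _ : ℕ => signLaw) (X := fun k ω => ω k)
    (fun k => measurable_pi_apply k)
    (iIndepFun_infinitePi (X := fun _ ω => ω) (by fun_prop))
    (ae_all_iff.mpr fun k => (hmp k).quasiMeasurePreserving.ae signLaw_ae)
    (fun k => by
      have := integral_map (μ := Measure.infinitePi fun _ : ℕ => signLaw)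
        (φ := fun ω : ℕ → ℝ => ω k) (f := fun x : ℝ => x) (measurable_pi_apply k).aemeasurable
        (by fun_prop)
      rw [← this, (hmp k).map_eq, signLaw_mean])
    hβ hα hi hi' htr
  have hy : Measurable fun ω : ℕ → ℝ => ∑' k, ω k * (β⁻¹) ^ k :=
    Measurable.tsum fun k => by fun_prop
  have : IsProbabilityMeasure (bernoulliConv β⁻¹) := Measure.isProbabilityMeasure_map
    (μ := Measure.infinitePi fun _ : ℕ => signLaw) hy.aemeasurable
  exact ⟨N, hN, hN0, hN1, by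
    rw [← Set.compl_eq_univ_diff]; exact (prob_compl_eq_zero_iff hN).mpr hN1⟩

lemma trace_int {β : ℝ} {α : ℂ} (hβ : 1 < β) (hα : ‖α‖ = 1) (σ τ : ℤ)
    (h1 : (β + β⁻¹) + 2 * α.re = σ) (h2 : (β + β⁻¹) * (2 * α.re) = τ) :
    ∀ j : ℤ, ∃ n : ℤ, β ^ j + β ^ (-j) + 2 * (α ^ j).re = n := by
  have hβ0 : β ≠ 0 := by linarith
  set y₁ := β + β⁻¹ with hy₁
  set y₂ := 2 * α.re with hy₂
  set p : ℕ → ℝ := fun j => β ^ j + β⁻¹ ^ j with hp
  set r : ℕ → ℝ := fun j => 2 * (α ^ j).re with hr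
  have hp2 : ∀ j, p (j + 2) = y₁ * p (j + 1) - p j := by
    intro j
    simp only [hp, hy₁]
    have : β * β⁻¹ = 1 := mul_inv_cancel₀ hβ0
    linear_combination (-(β ^ j) - β⁻¹ ^ j) * this
  have hαα : α ^ 2 + 1 = (y₂ : ℂ) * α := by
    have a1 : α * (starRingEnd ℂ) α = 1 := by
      rw [Complex.mul_conj, Complex.normSq_eq_norm_sq, hα]; simp
    have a2 : α + (starRingEnd ℂ) α = (y₂ : ℂ) := by
      rw [Complex.add_conj, hy₂]
    rw [← a2]; linear_combination -a1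
  have hr2 : ∀ j, r (j + 2) = y₂ * r (j + 1) - r j := by
    intro j
    simp only [hr]
    have : α ^ (j + 2) = (y₂ : ℂ) * α ^ (j + 1) - α ^ j := by
      linear_combination α ^ j * hαα
    rw [this, Complex.sub_re, Complex.re_ofReal_mul]; ring
  have key : ∀ j : ℕ, (∃ n : ℤ, p j + r j = n) ∧ (∃ n : ℤ, y₁ * p j + y₂ * r j = n) ∧
      (∃ n : ℤ, p (j + 1) + r (j + 1) = n) ∧ (∃ n : ℤ, y₁ * p (j + 1) + y₂ * r (j + 1) = n) := by
    intro j
    induction j with
    | zero =>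
      have p0 : p 0 = 2 := by simp [hp]; norm_num
      have r0 : r 0 = 2 := by simp [hr]
      have p1 : p (0 + 1) = y₁ := by simp [hp, hy₁]
      have r1 : r (0 + 1) = y₂ := by simp [hr, hy₂]
      rw [p0, r0, p1, r1]
      refine ⟨⟨4, by norm_num⟩, ⟨2 * σ, by push_cast; linarith⟩, ⟨σ, h1⟩, ⟨σ ^ 2 - 2 * τ, ?_⟩⟩
      push_cast
      rw [← h1, ← h2]; ring
    | succ j ih =>
      obtain ⟨⟨a, ha⟩, ⟨b, hb⟩, ⟨c, hc⟩, ⟨d, hd⟩⟩ := ih
      refine ⟨⟨c, hc⟩, ⟨d, hd⟩, ⟨d - a, ?_⟩, ⟨σ * d - τ * c - b, ?_⟩⟩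
      · rw [hp2, hr2]; push_cast; linarith
      · rw [hp2, hr2]; push_cast
        rw [← h1, ← h2, ← hb, ← hc, ← hd]; ring
  intro j
  rcases Int.eq_nat_or_neg j with ⟨k, rfl | rfl⟩
  · obtain ⟨n, hn⟩ := (key k).1
    refine ⟨n, ?_⟩
    simp only [hp, hr] at hn
    rw [zpow_neg, zpow_natCast, zpow_natCast, ← inv_pow]
    exact hn
  · obtain ⟨n, hn⟩ := (key k).1
    refine ⟨n, ?_⟩
    simp only [hp, hr] at hn
    have : (α ^ (-(k : ℤ))).re = (α ^ k).re := by
      rw [zpow_neg, zpow_natCast, Complex.inv_re, Complex.normSq_eq_norm_sq, norm_pow, hα]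
      simp
    rw [this, neg_neg, zpow_neg, zpow_natCast, ← inv_pow]
    linarith

lemma isIntegral_of_quartic (a b : ℤ) (x : ℝ)
    (hx : x ^ 4 - a * x ^ 3 + b * x ^ 2 - a * x + 1 = 0) : IsIntegral ℤ x := by
  refine ⟨X ^ 4 - C a * X ^ 3 + C b * X ^ 2 - C a * X + 1, by monicity!, ?_⟩
  simp only [eval₂_add, eval₂_sub, eval₂_mul, eval₂_pow, eval₂_X, eval₂_C, eval₂_one]
  simpa using hx

theorem singular_recip (a b : ℤ) {β : ℝ} {α : ℂ} (hβ : 1 < β) (hα : ‖α‖ = 1)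
    (h1 : β ^ 4 - a * β ^ 3 + b * β ^ 2 - a * β + 1 = 0)
    (h2 : α ^ 4 - a * α ^ 3 + b * α ^ 2 - a * α + 1 = 0) :
    IsSingular (bernoulliConv β⁻¹) := by
  have hβ0 : β ≠ 0 := by linarith
  have hα0 : α ≠ 0 := by intro h; rw [h] at hα; simp at hα
  have hi := isIntegral_of_quartic a b β h1
  have hi' := isIntegral_of_quartic a b β⁻¹ (by field_simp; linarith)
  set y₁ := β + β⁻¹ with hy₁
  set y₂ := 2 * α.re with hy₂
  have e1 : y₁ ^ 2 - a * y₁ + (b - 2) = 0 := by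
    rw [hy₁]; field_simp; linarith
  have hαα : α ^ 2 + 1 = (y₂ : ℂ) * α := by
    have a1 : α * (starRingEnd ℂ) α = 1 := by
      rw [Complex.mul_conj, Complex.normSq_eq_norm_sq, hα]; simp
    have a2 : α + (starRingEnd ℂ) α = (y₂ : ℂ) := by
      rw [Complex.add_conj, hy₂]
    rw [← a2]; linear_combination -a1
  have e2 : y₂ ^ 2 - a * y₂ + (b - 2) = 0 := by
    have : α ^ 2 * ((y₂ : ℂ) ^ 2 - a * y₂ + (b - 2)) = 0 := by
      linear_combination h2 - (α ^ 2 + 1 + y₂ * α - a * α) * hαα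
    have h3 := (mul_eq_zero.mp this).resolve_left (pow_ne_zero 2 hα0)
    exact_mod_cast h3
  have l1 : 2 < y₁ := by
    have : y₁ - 2 = (β - 1) ^ 2 / β := by rw [hy₁]; field_simp; ring
    have h3 : 0 < (β - 1) ^ 2 / β := by
      have : 0 < β - 1 := by linarith
      positivity
    linarith
  have l2 : y₂ ≤ 2 := by
    have := (le_abs_self _).trans (Complex.abs_re_le_norm α)
    rw [hy₂]; linarith
  have hs : y₁ + y₂ = a := by
    have : (y₁ - y₂) * (y₁ + y₂ - a) = 0 := by linear_combination e1 - e2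
    have h3 := (mul_eq_zero.mp this).resolve_left (by linarith)
    linarith
  have hp : y₁ * y₂ = ((b - 2 : ℤ) : ℝ) := by
    push_cast
    rw [← hs] at e1
    linear_combination -e1
  exact singular_of_trace' hβ hα hi hi' (trace_int hβ hα a (b - 2) hs hp)

theorem singular_of_salem {β : ℝ} (h : IsSalem β) (hd : (minpoly ℚ β).natDegree = 4) :
    IsSingular (bernoulliConv β⁻¹) := by
  obtain ⟨hβ, hi, -, α, hαr, hα⟩ := h
  have hiQ : IsIntegral ℚ β := hi.tower_top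
  have hirr : Irreducible (minpoly ℚ β) := minpoly.irreducible hiQ
  have hmap : minpoly ℚ β = (minpoly ℤ β).map (algebraMap ℤ ℚ) :=
    minpoly.isIntegrallyClosed_eq_field_fractions' ℚ hi
  set f := minpoly ℤ β with hf
  have hfm : f.Monic := minpoly.monic hi
  have hfd : f.natDegree = 4 := by
    rw [hmap, hfm.natDegree_map] at hd; exact hd
  have hc4 : f.coeff 4 = 1 := by rw [← hfd]; exact hfm.coeff_natDegree
  have hev : ∀ {K : Type} [Field K] [Algebra ℚ K] (x : K), aeval x (minpoly ℚ β) =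
      x ^ 4 + f.coeff 3 * x ^ 3 + f.coeff 2 * x ^ 2 + f.coeff 1 * x + f.coeff 0 := by
    intro K _ _ x
    rw [hmap, aeval_map_algebraMap, aeval_eq_sum_range, hfd]
    simp [sum_range_succ, hc4]
    ring
  have hα1 : aeval α (minpoly ℚ β) = 0 := (mem_aroots.mp hαr).2
  have hαmin : minpoly ℚ β = minpoly ℚ α :=
    minpoly.eq_of_irreducible_of_monic hirr hα1 (minpoly.monic hiQ)
  have hβ1 := hev β
  rw [minpoly.aeval] at hβ1
  have hα2 := hev α
  rw [hα1] at hα2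
  set c0 := f.coeff 0
  set c1 := f.coeff 1
  set c2 := f.coeff 2
  set c3 := f.coeff 3
  have a1 : α * (starRingEnd ℂ) α = 1 := by
    rw [Complex.mul_conj, Complex.normSq_eq_norm_sq, hα]; simp
  have hα3 : 1 + c3 * α + c2 * α ^ 2 + c1 * α ^ 3 + c0 * α ^ 4 = 0 := by
    have := congrArg (starRingEnd ℂ) hα2
    simp only [map_zero, map_add, map_pow, map_mul, map_intCast] at this
    set w := (starRingEnd ℂ) α
    have e4 : α ^ 4 * w ^ 4 = 1 := by rw [← mul_pow, a1, one_pow]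
    have e3 : α ^ 3 * w ^ 3 = 1 := by rw [← mul_pow, a1, one_pow]
    have e2 : α ^ 2 * w ^ 2 = 1 := by rw [← mul_pow, a1, one_pow]
    linear_combination (-α ^ 4) * this - e4 - c3 * α * e3 - c2 * α ^ 2 * e2 - c1 * α ^ 3 * a1
  set g : ℚ[X] := C ((c1 - c0 * c3 : ℤ) : ℚ) * X ^ 3 + C ((c2 - c0 * c2 : ℤ) : ℚ) * X ^ 2 +
    C ((c3 - c0 * c1 : ℤ) : ℚ) * X + C ((1 - c0 ^ 2 : ℤ) : ℚ) with hg
  have hg0 : aeval α g = 0 := by
    simp only [hg, map_add, map_mul, aeval_C, map_pow, aeval_X, eq_ratCast, Rat.cast_intCast]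
    push_cast
    linear_combination hα3 + c0 * hα2
  have hgd : g.natDegree ≤ 3 := by rw [hg]; compute_degree
  have hgz : g = 0 := by
    apply eq_zero_of_dvd_of_natDegree_lt (minpoly.dvd ℚ α hg0)
    rw [← hαmin, hd]; omega
  have g3 : c1 - c0 * c3 = 0 := by
    have : g.coeff 3 = 0 := by rw [hgz]; simp
    simp only [hg, coeff_add, coeff_C_mul, coeff_X_pow, coeff_X, coeff_C] at this
    norm_num at this
    exact_mod_cast this
  have g2 : c2 - c0 * c2 = 0 := by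
    have : g.coeff 2 = 0 := by rw [hgz]; simp
    simp only [hg, coeff_add, coeff_C_mul, coeff_X_pow, coeff_X, coeff_C] at this
    norm_num at this
    exact_mod_cast this
  have g0 : 1 - c0 ^ 2 = 0 := by
    have : g.coeff 0 = 0 := by rw [hgz]; simp
    simp only [hg, coeff_add, coeff_C_mul, coeff_X_pow, coeff_X, coeff_C] at this
    norm_num at this
    exact_mod_cast this
  have hc0 : c0 = 1 := by
    have : (c0 - 1) * (c0 + 1) = 0 := by linear_combination -g0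
    rcases mul_eq_zero.mp this with h | h
    · linarith
    · exfalso
      have h0 : c0 = -1 := by linarith
      have h2 : c2 = 0 := by rw [h0] at g2; linarith
      have h1 : c1 = -c3 := by rw [h0] at g3; linarith
      have h3 := hev (1 : ℚ)
      rw [h0, h1, h2] at h3
      have h4 : (minpoly ℚ β).IsRoot 1 := by
        rw [IsRoot.def, ← coe_aeval_eq_eval, h3]; push_cast; ring
      have h5 := degree_eq_one_of_irreducible_of_root hirr h4
      have h6 : (minpoly ℚ β).natDegree = 1 := natDegree_eq_of_degree_eq_some h5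
      omega
  have hc1 : c1 = c3 := by rw [hc0] at g3; linarith
  rw [hc0, hc1] at hβ1 hα2
  refine singular_recip (-c3) c2 hβ hα ?_ ?_
  · push_cast at hβ1 ⊢; linarith
  · push_cast at hα2 ⊢; linear_combination -hα2

lemma irreducible_phi5 (p : ℕ) [Fact p.Prime] (hp : ¬ p ∣ 5)
    (ho : orderOf (ZMod.unitOfCoprime p
      ((Fact.out : p.Prime).coprime_iff_not_dvd.mpr hp)) = 4) :
    Irreducible (X ^ 4 + X ^ 3 + X ^ 2 + X + 1 : (ZMod p)[X]) := by
  have : Fact (Nat.Prime 5) := ⟨by norm_num⟩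
  have h : cyclotomic 5 (ZMod p) = X ^ 4 + X ^ 3 + X ^ 2 + X + 1 := by
    rw [cyclotomic_prime]; simp [sum_range_succ]; ring
  refine ZMod.irreducible_of_dvd_cyclotomic_of_natDegree hp (h ▸ dvd_rfl) ?_
  rw [ho, ← h, natDegree_cyclotomic]
  decide

lemma order_two : orderOf (ZMod.unitOfCoprime 2
    ((Fact.out : (2 : ℕ).Prime).coprime_iff_not_dvd.mpr (by norm_num : ¬ 2 ∣ 5))) = 4 := by
  rw [← orderOf_units, orderOf_eq_iff (by norm_num)]
  simp only [ZMod.coe_unitOfCoprime]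
  decide

lemma order_three : orderOf (ZMod.unitOfCoprime 3
    ((Fact.out : (3 : ℕ).Prime).coprime_iff_not_dvd.mpr (by norm_num : ¬ 3 ∣ 5))) = 4 := by
  rw [← orderOf_units, orderOf_eq_iff (by norm_num)]
  simp only [ZMod.coe_unitOfCoprime]
  decide

lemma salem_of_irreducible (a b : ℤ) {β : ℝ} {α : ℂ} (hβ : 1 < β) (hα : ‖α‖ = 1)
    (h1 : β ^ 4 - a * β ^ 3 + b * β ^ 2 - a * β + 1 = 0)
    (h2 : α ^ 4 - a * α ^ 3 + b * α ^ 2 - a * α + 1 = 0)
    (hirr : Irreducible (X ^ 4 - C a * X ^ 3 + C b * X ^ 2 - C a * X + 1 : ℤ[X])) :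
    ¬ IsPisot β := by
  have hm : (X ^ 4 - C a * X ^ 3 + C b * X ^ 2 - C a * X + 1 : ℤ[X]).Monic := by monicity!
  have hirrQ := (hm.irreducible_iff_irreducible_map_fraction_map (K := ℚ)).mp hirr
  have hmin := minpoly.eq_of_irreducible_of_monic (x := β) hirrQ (by
    rw [aeval_map_algebraMap]; simpa using h1) (hm.map _)
  rintro ⟨-, hi, h⟩
  have hiQ : IsIntegral ℚ β := hi.tower_top
  have := h α (mem_aroots.mpr ⟨minpoly.ne_zero hiQ, by
    rw [← hmin, aeval_map_algebraMap]; simpa using h2⟩) (by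
    intro he
    rw [he, Complex.norm_real, Real.norm_eq_abs, abs_of_pos (by linarith)] at hα
    linarith)
  linarith

lemma exists_roots (a b : ℤ) (y₁ y₂ : ℝ) (hs : y₁ + y₂ = a) (hp : y₁ * y₂ = b - 2)
    (h1 : 2 < y₁) (h1' : y₁ < 5 / 2) (h2 : |y₂| ≤ 2) :
    ∃ (β : ℝ) (α : ℂ), 1 < β ∧ β < 2 ∧ ‖α‖ = 1 ∧
      β ^ 4 - a * β ^ 3 + b * β ^ 2 - a * β + 1 = 0 ∧
      α ^ 4 - a * α ^ 3 + b * α ^ 2 - a * α + 1 = 0 := by
  have hd : 0 ≤ y₁ ^ 2 - 4 := by nlinarith
  have hd2 : 0 ≤ 4 - y₂ ^ 2 := by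
    have := sq_le_sq' (abs_le.mp h2).1 (abs_le.mp h2).2
    linarith
  set s := √(y₁ ^ 2 - 4) with hsdef
  set t := √(4 - y₂ ^ 2) with htdef
  have hs2 : s ^ 2 = y₁ ^ 2 - 4 := sq_sqrt hd
  have ht2 : t ^ 2 = 4 - y₂ ^ 2 := sq_sqrt hd2
  have hs0 : 0 ≤ s := sqrt_nonneg _
  have hb : (b : ℝ) = y₁ * y₂ + 2 := by linarith
  refine ⟨(y₁ + s) / 2, ⟨y₂ / 2, t / 2⟩, by linarith, ?_, ?_, ?_, ?_⟩
  · have : s < 3 / 2 := by nlinarith
    linarith
  · rw [Complex.norm_eq_sqrt_sq_add_sq, sqrt_eq_one]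
    simp only
    linarith
  · have q : ((y₁ + s) / 2) ^ 2 - y₁ * ((y₁ + s) / 2) + 1 = 0 := by linarith
    rw [← hs, hb]
    linear_combination (((y₁ + s) / 2) ^ 2 - y₂ * ((y₁ + s) / 2) + 1) * q
  · set α : ℂ := ⟨y₂ / 2, t / 2⟩ with hα
    have q : α ^ 2 - y₂ * α + 1 = 0 := by
      apply Complex.ext
      · simp [hα, sq]; linarith
      · simp [hα, sq]; ring
    have ha : (a : ℂ) = y₁ + y₂ := by exact_mod_cast hs.symm
    have hb' : (b : ℂ) = y₁ * y₂ + 2 := by exact_mod_cast hb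
    rw [ha, hb']
    linear_combination (α ^ 2 - y₁ * α + 1) * q

lemma example_of (a b : ℤ) (y₁ y₂ : ℝ) (hs : y₁ + y₂ = a) (hp : y₁ * y₂ = b - 2)
    (h1 : 2 < y₁) (h1' : y₁ < 5 / 2) (h2 : |y₂| ≤ 2)
    (hirr : Irreducible (X ^ 4 - C a * X ^ 3 + C b * X ^ 2 - C a * X + 1 : ℤ[X])) :
    ∃ l : ℝ, 1 / 2 < l ∧ l < 1 ∧ l ^ 4 - a * l ^ 3 + b * l ^ 2 - a * l + 1 = 0 ∧
      ¬ IsPisot l⁻¹ ∧ IsSingular (bernoulliConv l) := by
  obtain ⟨β, α, hβ, hβ2, hα, e1, e2⟩ := exists_roots a b y₁ y₂ hs hp h1 h1' h2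
  have hβ0 : 0 < β := by linarith
  refine ⟨β⁻¹, ?_, inv_lt_one_of_one_lt₀ hβ, ?_, ?_, singular_recip a b hβ hα e1 e2⟩
  · rw [one_div]; exact inv_strictAnti₀ hβ0 hβ2
  · field_simp; linarith
  · rw [inv_inv]; exact salem_of_irreducible a b hβ hα e1 e2 hirr

theorem example_one : ∃ l : ℝ, 1 / 2 < l ∧ l < 1 ∧ l ^ 4 - l ^ 3 - l ^ 2 - l + 1 = 0 ∧
    ¬ IsPisot l⁻¹ ∧ IsSingular (bernoulliConv l) := by
  have h13 : √13 ^ 2 = 13 := sq_sqrt (by norm_num)
  have hlo : 3 < √13 := by rw [lt_sqrt (by norm_num)]; norm_num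
  have hhi : √13 < 4 := by rw [sqrt_lt' (by norm_num)]; norm_num
  obtain ⟨l, h1, h2, h3, h4⟩ := example_of 1 (-1) ((1 + √13) / 2) ((1 - √13) / 2)
    (by push_cast; ring) (by push_cast; linarith) (by linarith) (by linarith)
    (by rw [abs_le]; constructor <;> linarith) (by
      have hm : (X ^ 4 - C 1 * X ^ 3 + C (-1) * X ^ 2 - C 1 * X + 1 : ℤ[X]).Monic := by monicity!
      refine hm.irreducible_of_irreducible_map (Int.castRingHom (ZMod 2)) _ ?_
      convert irreducible_phi5 2 (by norm_num) order_two using 1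
      have h2 : (2 : (ZMod 2)[X]) = 0 := by
        have : (2 : (ZMod 2)[X]) = C 2 := rfl
        rw [this]; simp [show (2 : ZMod 2) = 0 by decide]
      simp
      linear_combination (-(X ^ 3) - X ^ 2 - X) * h2)
  refine ⟨l, h1, h2, ?_, h4⟩
  push_cast at h3
  linarith

theorem example_two : ∃ l : ℝ, 1 / 2 < l ∧ l < 1 ∧ l ^ 4 - 2 * l ^ 3 + l ^ 2 - 2 * l + 1 = 0 ∧
    ¬ IsPisot l⁻¹ ∧ IsSingular (bernoulliConv l) := by
  have h2 : √2 ^ 2 = 2 := sq_sqrt (by norm_num)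
  have hlo : 1 < √2 := by rw [lt_sqrt (by norm_num)]; norm_num
  have hhi : √2 < 3 / 2 := by rw [sqrt_lt' (by norm_num)]; norm_num
  obtain ⟨l, h1, h2, h3, h4⟩ := example_of 2 1 (1 + √2) (1 - √2)
    (by push_cast; ring) (by push_cast; linarith) (by linarith) (by linarith)
    (by rw [abs_le]; constructor <;> linarith) (by
      have hm : (X ^ 4 - C 2 * X ^ 3 + C 1 * X ^ 2 - C 2 * X + 1 : ℤ[X]).Monic := by monicity!
      refine hm.irreducible_of_irreducible_map (Int.castRingHom (ZMod 3)) _ ?_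
      convert irreducible_phi5 3 (by norm_num) order_three using 1
      have h3 : (3 : (ZMod 3)[X]) = 0 := by
        have : (3 : (ZMod 3)[X]) = C 3 := rfl
        rw [this]; simp [show (3 : ZMod 3) = 0 by decide]
      simp
      linear_combination (-(X ^ 3) - X) * h3)
  refine ⟨l, h1, h2, ?_, h4⟩
  push_cast at h3
  linarith

end Vale.Agent.P105
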