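import Vale.Agent.P105.Iter

/-!
The probabilistic side and the Lebesgue side of the second moment test.
-/

open Real Finset Filter Topology MeasureTheory ProbabilityTheory

namespace Vale.Agent.P105

section leb

lemma abs_integral_cos_le (c R : ℝ) (hc : c ≠ 0) :
    |∫ x in (-R)..R, cos (c * x)| ≤ 2 / |c| := by
  rw [intervalIntegral.integral_comp_mul_left (fun x => cos x) hc, integral_cos, smul_eq_mul,
    abs_mul, abs_inv, div_eq_mul_inv, mul_comm]
  refine mul_le_mul_of_nonneg_right ?_ (by positivity)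
  have h1 := abs_sin_le_one (c * R)
  have h2 := abs_sin_le_one (c * -R)
  calc |sin (c * R) - sin (c * -R)| ≤ |sin (c * R)| + |sin (c * -R)| := abs_sub _ _
    _ ≤ 2 := by linarith

lemma integral_cos_mul_cos_le (u v R T : ℝ) (hT : 0 < T) (h1 : T ≤ |u - v|) (h2 : T ≤ |u + v|) :
    ∫ x in (-R)..R, cos (u * x) * cos (v * x) ≤ 2 / T := by
  have e : ∀ x, cos (u * x) * cos (v * x) =
      1 / 2 * cos ((u - v) * x) + 1 / 2 * cos ((u + v) * x) := by
    intro x
    rw [sub_mul, add_mul, cos_sub, cos_add]; ring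
  simp_rw [e]
  rw [intervalIntegral.integral_add (by apply Continuous.intervalIntegrable; fun_prop)
    (by apply Continuous.intervalIntegrable; fun_prop), intervalIntegral.integral_const_mul,
    intervalIntegral.integral_const_mul]
  have a1 := abs_integral_cos_le (u - v) R (by
    intro h; rw [h, abs_zero] at h1; linarith)
  have a2 := abs_integral_cos_le (u + v) R (by
    intro h; rw [h, abs_zero] at h2; linarith)
  have b1 : 2 / |u - v| ≤ 2 / T := div_le_div_of_nonneg_left (by norm_num) hT h1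
  have b2 : 2 / |u + v| ≤ 2 / T := div_le_div_of_nonneg_left (by norm_num) hT h2
  linarith [le_abs_self (∫ x in (-R)..R, cos ((u - v) * x)),
    le_abs_self (∫ x in (-R)..R, cos ((u + v) * x))]

lemma integral_sq_sum_cos_le (f : ℕ → ℝ) (M : ℕ) (hM : 0 < M) (R : ℝ) (hR : 0 ≤ R)
    (h1 : ∀ i k, i ≠ k → (M : ℝ) ≤ |f i - f k| ∧ (M : ℝ) ≤ |f i + f k|) :
    ∫ x in (-R)..R, (∑ i ∈ range M, cos (f i * x)) ^ 2 ≤ (2 * R + 2) * M := by
  have hM' : (0 : ℝ) < M := by exact_mod_cast hM
  have e : ∀ x, (∑ i ∈ range M, cos (f i * x)) ^ 2 =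
      ∑ i ∈ range M, ∑ k ∈ range M, cos (f i * x) * cos (f k * x) := by
    intro x; rw [sq, sum_mul_sum]
  simp_rw [e]
  rw [intervalIntegral.integral_finsetSum (fun i _ => by
    apply Continuous.intervalIntegrable; fun_prop)]
  have h2 : ∀ i ∈ range M, ∫ x in (-R)..R, ∑ k ∈ range M, cos (f i * x) * cos (f k * x) ≤
      2 * R + 2 := by
    intro i hi
    rw [intervalIntegral.integral_finsetSum (fun i _ => by
      apply Continuous.intervalIntegrable; fun_prop), ← add_sum_erase _ _ hi]
    have a1 : ∫ x in (-R)..R, cos (f i * x) * cos (f i * x) ≤ 2 * R := by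
      have : ∫ x in (-R)..R, cos (f i * x) * cos (f i * x) ≤ ∫ x in (-R)..R, (1 : ℝ) := by
        apply intervalIntegral.integral_mono_on (by linarith)
          (by apply Continuous.intervalIntegrable; fun_prop) (by simp)
        intro x _
        nlinarith [cos_sq_le_one (f i * x)]
      simp at this
      linarith
    have a2 : ∑ k ∈ (range M).erase i, ∫ x in (-R)..R, cos (f i * x) * cos (f k * x) ≤
        ∑ k ∈ (range M).erase i, (2 : ℝ) / M := by
      refine sum_le_sum fun k hk => ?_
      have hik : i ≠ k := (ne_of_mem_erase hk).symm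
      exact integral_cos_mul_cos_le _ _ R M hM' (h1 i k hik).1 (h1 i k hik).2
    have a3 : ∑ k ∈ (range M).erase i, (2 : ℝ) / M ≤ 2 := by
      rw [sum_const, nsmul_eq_mul]
      have : (((range M).erase i).card : ℝ) ≤ M := by
        have := card_erase_le (s := range M) (a := i)
        rw [card_range] at this
        exact_mod_cast this
      calc (((range M).erase i).card : ℝ) * (2 / M) ≤ M * (2 / M) := by gcongr
        _ = 2 := by field_simp
    linarith
  calc _ ≤ ∑ i ∈ range M, (2 * R + 2) := sum_le_sum h2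
    _ = (2 * R + 2) * M := by rw [sum_const, card_range, nsmul_eq_mul]; ring

lemma volume_large_le (f : ℕ → ℝ) (M : ℕ) (hM : 0 < M) (R t : ℝ) (hR : 0 ≤ R) (ht : 0 < t)
    (h1 : ∀ i k, i ≠ k → (M : ℝ) ≤ |f i - f k| ∧ (M : ℝ) ≤ |f i + f k|) :
    volume ({x : ℝ | t ≤ |∑ i ∈ range M, cos (f i * x)|} ∩ Set.Ioc (-R) R) ≤
      ENNReal.ofReal ((2 * R + 2) * M / t ^ 2) := by
  have h2 := integral_sq_sum_cos_le f M hM R hR h1
  rw [intervalIntegral.integral_of_le (by linarith)] at h2
  have hc : Continuous fun x : ℝ => (∑ i ∈ range M, cos (f i * x)) ^ 2 := by fun_prop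
  have h3 := mul_meas_ge_le_integral_of_nonneg (μ := volume.restrict (Set.Ioc (-R) R))
    (f := fun x : ℝ => (∑ i ∈ range M, cos (f i * x)) ^ 2)
    (Eventually.of_forall fun x => sq_nonneg _)
    ((hc.integrableOn_Icc (a := -R) (b := R)).mono_set Set.Ioc_subset_Icc_self) (t ^ 2)
  have hset : {x : ℝ | t ≤ |∑ i ∈ range M, cos (f i * x)|} =
      {x : ℝ | t ^ 2 ≤ (∑ i ∈ range M, cos (f i * x)) ^ 2} := by
    ext x
    simp only [Set.mem_ofPred_eq]
    rw [sq_le_sq, abs_of_pos ht]
  have hmeas : MeasurableSet {x : ℝ | t ^ 2 ≤ (∑ i ∈ range M, cos (f i * x)) ^ 2} :=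
    measurableSet_le measurable_const hc.measurable
  rw [hset, ← Measure.restrict_apply hmeas]
  have hfin : (volume.restrict (Set.Ioc (-R) R))
      {x : ℝ | t ^ 2 ≤ (∑ i ∈ range M, cos (f i * x)) ^ 2} ≠ ⊤ := measure_ne_top _ _
  rw [← ENNReal.ofReal_toReal hfin]
  apply ENNReal.ofReal_le_ofReal
  rw [le_div_iff₀ (by positivity), mul_comm]
  exact h3.trans h2

end leb

section prob

variable {Ω : Type*} [MeasurableSpace Ω] {P : Measure Ω} {X : ℕ → Ω → ℝ}

lemma indep_sums (hm : ∀ k, Measurable (X k)) (hind : iIndepFun X P) (S T : Finset ℕ)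
    (hST : Disjoint S T) (c d : ℕ → ℝ) :
    IndepFun (fun ω => ∑ k ∈ S, c k * X k ω) (fun ω => ∑ k ∈ T, d k * X k ω) P := by
  have h := (hind.indepFun_finset S T hST hm).comp
    (φ := fun x : S → ℝ => ∑ i : S, c i * x i) (ψ := fun x : T → ℝ => ∑ i : T, d i * x i)
    (by fun_prop) (by fun_prop)
  convert h using 1
  · ext ω
    simp only [Function.comp]
    exact (sum_coe_sort S (fun k => c k * X k ω)).symm
  · ext ω
    simp only [Function.comp]
    exact (sum_coe_sort T (fun k => d k * X k ω)).symm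

lemma integral_cos_sum [IsProbabilityMeasure P] (hm : ∀ k, Measurable (X k))
    (hind : iIndepFun X P) (hpm : ∀ᵐ ω ∂P, ∀ k, X k ω = 1 ∨ X k ω = -1)
    (hmean : ∀ k, ∫ ω, X k ω ∂P = 0) (c : ℕ → ℝ) (F : Finset ℕ) :
    ∫ ω, cos (∑ k ∈ F, c k * X k ω) ∂P = ∏ k ∈ F, cos (c k) := by
  classical
  induction F using Finset.induction_on with
  | empty => simp
  | insert a F ha ih =>
    have hS : Measurable fun ω => ∑ k ∈ F, c k * X k ω := by fun_prop
    have e : (fun ω => cos (∑ k ∈ insert a F, c k * X k ω)) =ᵐ[P]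
        fun ω => cos (c a) * cos (∑ k ∈ F, c k * X k ω) -
          sin (c a) * (sin (∑ k ∈ F, c k * X k ω) * X a ω) := by
      filter_upwards [hpm] with ω hω
      rw [sum_insert ha, cos_add]
      rcases hω a with h | h <;> rw [h] <;> simp
    have i1 : Integrable (fun ω => cos (∑ k ∈ F, c k * X k ω)) P :=
      Integrable.of_bound (C := 1) (by fun_prop)
        (Eventually.of_forall fun ω => by simpa using abs_cos_le_one _)
    have i2 : Integrable (fun ω => sin (∑ k ∈ F, c k * X k ω) * X a ω) P := by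
      refine Integrable.of_bound (C := 1) (Measurable.aestronglyMeasurable (by fun_prop)) ?_
      filter_upwards [hpm] with ω hω
      have := abs_sin_le_one (∑ k ∈ F, c k * X k ω)
      rcases hω a with h | h <;> rw [h] <;> simpa using this
    have hI : IndepFun (fun ω => sin (∑ k ∈ F, c k * X k ω)) (X a) P := by
      have h := (indep_sums hm hind F {a} (by simpa using ha) c (fun _ => 1)).comp
        (φ := sin) (ψ := id) measurable_sin measurable_id
      have e2 : (id ∘ fun ω => ∑ k ∈ ({a} : Finset ℕ), (1 : ℝ) * X k ω) = X a := by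
        ext ω; simp
      rw [e2] at h
      exact h
    rw [integral_congr_ae e, integral_sub (i1.const_mul _) (i2.const_mul _), integral_const_mul,
      integral_const_mul, ih, prod_insert ha,
      hI.integral_fun_mul_eq_mul_integral (Measurable.aestronglyMeasurable (by fun_prop))
        (hm a).aestronglyMeasurable]
    have : ∫ ω, X a ω ∂P = 0 := hmean a
    simp [this]

lemma prob_dev_le [IsProbabilityMeasure P] (hm : ∀ k, Measurable (X k))
    (hind : iIndepFun X P) (hpm : ∀ᵐ ω ∂P, ∀ k, X k ω = 1 ∨ X k ω = -1)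
    (hmean : ∀ k, ∫ ω, X k ω ∂P = 0) (W : ℕ → Finset ℕ)
    (hW : ∀ i k, i ≠ k → Disjoint (W i) (W k)) (c : ℕ → ℕ → ℝ) (a : ℝ)
    (ha : ∀ i, ∏ k ∈ W i, cos (c i k) = a) (M : ℕ) (t : ℝ) (ht : 0 < t) :
    P {ω | t ≤ |∑ i ∈ range M, cos (∑ k ∈ W i, c i k * X k ω) - M * a|} ≤
      ENNReal.ofReal (M / t ^ 2) := by
  set Y : ℕ → Ω → ℝ := fun i ω => cos (∑ k ∈ W i, c i k * X k ω) with hY
  have hYm : ∀ i, Measurable (Y i) := fun i => by rw [hY]; fun_prop
  have hYb : ∀ i, ∀ᵐ ω ∂P, Y i ω ∈ Set.Icc (-1 : ℝ) 1 := fun i =>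
    Eventually.of_forall fun ω => ⟨neg_one_le_cos _, cos_le_one _⟩
  have hYL : ∀ i, MemLp (Y i) 2 P := fun i => memLp_of_bounded (hYb i) (hYm i).aestronglyMeasurable 2
  have hL : MemLp (∑ i ∈ range M, Y i) 2 P := memLp_finsetSum' _ (fun i _ => hYL i)
  have hvar : variance (∑ i ∈ range M, Y i) P ≤ M := by
    rw [IndepFun.variance_sum (fun i _ => hYL i)]
    · calc ∑ i ∈ range M, variance (Y i) P ≤ ∑ i ∈ range M, (1 : ℝ) := by
            refine sum_le_sum fun i _ => ?_
            have := variance_le_sq_of_bounded (hYb i) (hYm i).aemeasurable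
            norm_num at this
            exact this
        _ = M := by simp
    · intro i _ k _ hik
      exact (indep_sums hm hind (W i) (W k) (hW i k hik) (c i) (c k)).comp
        (φ := cos) (ψ := cos) measurable_cos measurable_cos
  have hE : ∫ ω, (∑ i ∈ range M, Y i) ω ∂P = M * a := by
    simp only [Finset.sum_apply]
    rw [integral_finsetSum _ (fun i _ => (hYL i).integrable (by norm_num))]
    have : ∀ i ∈ range M, ∫ ω, Y i ω ∂P = a := fun i _ => by
      rw [hY]
      simp only
      rw [integral_cos_sum hm hind hpm hmean, ha]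
    rw [sum_congr rfl this]
    simp
  have h := meas_ge_le_variance_div_sq hL ht
  rw [hE] at h
  simp only [Finset.sum_apply] at h
  refine h.trans (ENNReal.ofReal_le_ofReal ?_)
  gcongr

end prob

end Vale.Agent.P105
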