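import Vale.Agent.P105.Main

/-!
The law of pure types for Bernoulli convolutions, and cylinder sets.
-/

open Real Finset Filter Topology MeasureTheory ProbabilityTheory

namespace Vale.Agent.P105

/-- the product measure on sign sequences -/
noncomputable abbrev signP : Measure (ℕ → ℝ) := Measure.infinitePi fun _ : ℕ => signLaw

lemma signP_ae : ∀ᵐ ω ∂signP, ∀ k, ω k = 1 ∨ ω k = -1 :=
  ae_all_iff.mpr fun k =>
    (measurePreserving_eval_infinitePi (fun _ : ℕ => signLaw) k).quasiMeasurePreserving.ae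
      signLaw_ae

lemma measurable_series (l : ℝ) : Measurable fun ω : ℕ → ℝ => ∑' k, ω k * l ^ k :=
  Measurable.tsum fun k => by fun_prop

instance (l : ℝ) : IsProbabilityMeasure (bernoulliConv l) :=
  Measure.isProbabilityMeasure_map (μ := signP) (measurable_series l).aemeasurable

lemma bernoulliConv_apply (l : ℝ) {T : Set ℝ} (hT : MeasurableSet T) :
    bernoulliConv l T = signP {ω | (∑' k, ω k * l ^ k) ∈ T} :=
  Measure.map_apply (measurable_series l) hT

lemma summable_sign' {l : ℝ} (h0 : 0 < l) (h1 : l < 1) (x : ℕ → ℝ)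
    (hx : ∀ k, x k = 1 ∨ x k = -1) : Summable fun k => x k * l ^ k := by
  have := summable_sign (β := l⁻¹) ((one_lt_inv₀ h0).mpr h1) x hx
  rwa [inv_inv] at this

lemma abs_tsum_sign_le' {l : ℝ} (h0 : 0 < l) (h1 : l < 1) (x : ℕ → ℝ)
    (hx : ∀ k, x k = 1 ∨ x k = -1) : |∑' k, x k * l ^ k| ≤ 1 / (1 - l) := by
  have := abs_tsum_sign_le (β := l⁻¹) ((one_lt_inv₀ h0).mpr h1) x hx
  rw [inv_inv] at this
  refine this.trans (le_of_eq ?_)
  have : 1 - l ≠ 0 := by linarith
  field_simp

theorem singular_of_null_pos {l : ℝ} (h0 : 0 < l) (h1 : l < 1) (N : Set ℝ)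
    (hN : MeasurableSet N) (hN0 : volume N = 0) (hN1 : bernoulliConv l N ≠ 0) :
    IsSingular (bernoulliConv l) := by
  set φ : (ℕ →₀ ℤ) →ₗ[ℤ] ℝ := Finsupp.linearCombination ℤ (fun i => l ^ i) with hφ
  set N' : Set ℝ := ⋃ c : ℕ →₀ ℤ, (fun x => x + φ c) ⁻¹' N with hN'
  have hN'm : MeasurableSet N' :=
    MeasurableSet.iUnion fun c => (measurable_add_const _) hN
  have hN'0 : volume N' = 0 := by
    rw [hN', measure_iUnion_null_iff]
    intro c
    rw [measure_preimage_add_right, hN0]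
  have hsub : N ⊆ N' := fun x hx => Set.mem_iUnion.mpr ⟨0, by simpa using hx⟩
  have hinv : ∀ (x d : ℝ), d ∈ LinearMap.range φ → x ∈ N' → x + d ∈ N' := by
    rintro x _ ⟨c, rfl⟩ hx
    obtain ⟨c', hc'⟩ := Set.mem_iUnion.mp hx
    refine Set.mem_iUnion.mpr ⟨c' - c, ?_⟩
    simp only [Set.mem_preimage, map_sub] at hc' ⊢
    convert hc' using 1; ring
  set T : ℕ → (ℕ → ℝ) → ℝ := fun n ω => ∑' k, ω (k + n) * l ^ (k + n) with hT
  set E : Set (ℕ → ℝ) := {ω | ∀ᶠ n in atTop, T n ω ∈ N'} with hE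
  have hind : iIndepFun (fun k (ω : ℕ → ℝ) => ω k) signP :=
    iIndepFun_infinitePi (X := fun _ ω => ω) (by fun_prop)
  have htail : MeasurableSet[limsup (fun k : ℕ => (inferInstance : MeasurableSpace ℝ).comap
      (fun ω : ℕ → ℝ => ω k)) atTop] E := by
    rw [limsup_eq_iInf_iSup_of_nat, MeasurableSpace.measurableSet_iInf]
    intro m
    have hE2 : E = ⋃ a : ℕ, ⋂ n : ℕ, T (n + a + m) ⁻¹' N' := by
      ext ω
      simp only [hE, Set.mem_ofPred_eq, eventually_atTop, Set.mem_iUnion, Set.mem_iInter,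
        Set.mem_preimage]
      constructor
      · rintro ⟨a, ha⟩
        exact ⟨a, fun n => ha _ (by omega)⟩
      · rintro ⟨a, ha⟩
        refine ⟨a + m, fun b hb => ?_⟩
        have := ha (b - (a + m))
        rwa [show b - (a + m) + a + m = b by omega] at this
    rw [hE2]
    refine MeasurableSet.iUnion fun a => MeasurableSet.iInter fun n => ?_
    refine (?_ : Measurable[⨆ i ≥ m, (inferInstance : MeasurableSpace ℝ).comap
      (fun ω : ℕ → ℝ => ω i)] (T (n + a + m))) hN'm
    let _ : MeasurableSpace (ℕ → ℝ) := ⨆ i ≥ m, (inferInstance : MeasurableSpace ℝ).comap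
      (fun ω : ℕ → ℝ => ω i)
    refine Measurable.tsum fun k => Measurable.mul_const ?_ _
    rw [measurable_iff_comap_le]
    exact le_iSup₂_of_le (k + (n + a + m)) (show k + (n + a + m) ≥ m by omega) le_rfl
  have h01 := measure_zero_or_one_of_measurableSet_limsup_atTop
    (fun k => (measurable_pi_apply k).comap_le) hind.iIndep htail
  have hEeq : E =ᵐ[signP] {ω | (∑' k, ω k * l ^ k) ∈ N'} := by
    filter_upwards [signP_ae] with ω hω
    have key : ∀ n, T n ω ∈ N' ↔ (∑' k, ω k * l ^ k) ∈ N' := by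
      intro n
      have hs := (summable_sign' h0 h1 ω hω).sum_add_tsum_nat_add n
      have hd : ∑ i ∈ range n, ω i * l ^ i ∈ LinearMap.range φ := by
        refine Submodule.sum_mem _ fun i _ => ?_
        have hi : l ^ i ∈ LinearMap.range φ := ⟨Finsupp.single i 1, by simp [hφ]⟩
        rcases hω i with h | h <;> rw [h]
        · simpa using hi
        · simpa using Submodule.neg_mem _ hi
      constructor
      · intro h
        have := hinv _ _ hd h
        rwa [← hs, add_comm]
      · intro h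
        have := hinv _ _ (Submodule.neg_mem _ hd) h
        rw [← hs] at this
        convert this using 1
        simp [hT]
    apply propext
    change (∀ᶠ n in atTop, T n ω ∈ N') ↔ _
    simp only [key, eventually_const]
    rfl
  rw [measure_congr hEeq, ← bernoulliConv_apply l hN'm] at h01
  have h1' : bernoulliConv l N' = 1 := by
    refine h01.resolve_left fun h => hN1 ?_
    exact measure_mono_null hsub h
  exact ⟨N', hN'm, hN'0, h1', by
    rw [← Set.compl_eq_univ_sdiff]; exact (prob_compl_eq_zero_iff hN'm).mpr h1'⟩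

theorem ac_iff_not_singular {l : ℝ} (h0 : 0 < l) (h1 : l < 1) :
    bernoulliConv l ≪ volume ↔ ¬ IsSingular (bernoulliConv l) := by
  constructor
  · rintro h ⟨N, -, hN0, hN1, -⟩
    rw [h hN0] at hN1
    exact zero_ne_one hN1
  · intro h
    refine Measure.AbsolutelyContinuous.mk fun N hN hN0 => ?_
    by_contra hne
    exact h (singular_of_null_pos h0 h1 N hN hN0 hne)

lemma exists_null_pos (ν : Measure ℝ) [IsProbabilityMeasure ν]
    (h : ∀ η : ℝ, 0 < η → ∃ T : Set ℝ, MeasurableSet T ∧ volume T ≤ ENNReal.ofReal η ∧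
      1 / 2 ≤ ν T) :
    ∃ N : Set ℝ, MeasurableSet N ∧ volume N = 0 ∧ ν N ≠ 0 := by
  choose T hTm hT1 hT2 using fun n : ℕ => h ((1 / 2) ^ n) (by positivity)
  have hsum : ∑' n : ℕ, ENNReal.ofReal ((1 / 2 : ℝ) ^ n) ≠ ⊤ := by
    rw [← ENNReal.ofReal_tsum_of_nonneg (fun n => by positivity) summable_geometric_two]
    exact ENNReal.ofReal_ne_top
  have h1 : volume (limsup T atTop) = 0 :=
    measure_limsup_atTop_eq_zero (ne_top_of_le_ne_top hsum (ENNReal.tsum_le_tsum hT1))
  rw [limsup_eq_iInf_iSup_of_nat] at h1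
  simp only [Set.iInf_eq_iInter, Set.iSup_eq_iUnion] at h1
  have hm : ∀ n, MeasurableSet (⋃ i ≥ n, T i) := fun n =>
    MeasurableSet.iUnion fun i => MeasurableSet.iUnion fun _ => hTm i
  refine ⟨_, MeasurableSet.iInter hm, h1, ?_⟩
  have hanti : Antitone fun n => ⋃ i ≥ n, T i := fun a b hab =>
    Set.biUnion_subset_biUnion_left fun i (hi : i ≥ b) => le_trans hab hi
  have h2 := tendsto_measure_iInter_atTop (μ := ν) (fun n => (hm n).nullMeasurableSet) hanti
    ⟨0, measure_ne_top _ _⟩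
  have h3 : 1 / 2 ≤ ν (⋂ n, ⋃ i ≥ n, T i) := by
    refine ge_of_tendsto' h2 fun n => (hT2 n).trans (measure_mono ?_)
    exact Set.subset_biUnion_of_mem (u := T) (show n ∈ {i | i ≥ n} from le_refl n)
  intro h4
  rw [h4] at h3
  simp at h3

/-- cylinder of sign sequences whose set of plus signs among the first `n` places is `w` -/
def cyl (n : ℕ) (w : Finset ℕ) : Set (ℕ → ℝ) :=
  Set.pi (range n : Finset ℕ) fun i => {if i ∈ w then (1 : ℝ) else -1}

lemma measurableSet_cyl (n : ℕ) (w : Finset ℕ) : MeasurableSet (cyl n w) :=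
  MeasurableSet.pi (Finset.countable_toSet _) fun _ _ => measurableSet_singleton _

lemma signP_cyl (n : ℕ) (w : Finset ℕ) : signP (cyl n w) = (1 / 2) ^ n := by
  rw [cyl, Measure.infinitePi_pi _ (fun _ _ => measurableSet_singleton _)]
  have : ∀ i ∈ range n, signLaw {if i ∈ w then (1 : ℝ) else -1} = 1 / 2 := by
    intro i _
    split_ifs
    · simp [signLaw, Set.indicator, show (-1 : ℝ) ≠ 1 by norm_num]
    · simp [signLaw, Set.indicator, show (1 : ℝ) ≠ -1 by norm_num]
  rw [prod_congr rfl this, prod_const, card_range]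

lemma cyl_disjoint (n : ℕ) : Set.PairwiseDisjoint ((range n).powerset : Set (Finset ℕ)) (cyl n) := by
  intro a ha b hb hab
  rw [Function.onFun, Set.disjoint_left]
  intro ω h1 h2
  apply hab
  ext i
  have ha' := mem_powerset.mp ha
  have hb' := mem_powerset.mp hb
  by_cases hi : i ∈ range n
  · have e1 := h1 i hi
    have e2 := h2 i hi
    simp only [Set.mem_singleton_iff] at e1 e2
    rw [e1] at e2
    by_cases hia : i ∈ a <;> by_cases hib : i ∈ b <;> simp [hia, hib] at e2 ⊢ <;> linarith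
  · exact ⟨fun h => absurd (ha' h) hi, fun h => absurd (hb' h) hi⟩

lemma signP_biUnion_cyl (n : ℕ) (W : Finset (Finset ℕ)) (hW : W ⊆ (range n).powerset) :
    signP (⋃ w ∈ W, cyl n w) = W.card * (1 / 2) ^ n := by
  rw [measure_biUnion_finset ((cyl_disjoint n).subset hW) (fun w _ => measurableSet_cyl n w)]
  simp [signP_cyl]

lemma mem_cyl_self (n : ℕ) (ω : ℕ → ℝ) (hω : ∀ k, ω k = 1 ∨ ω k = -1) :
    ω ∈ cyl n ((range n).filter fun i => ω i = 1) := by
  intro i hi
  have hi' : i ∈ range n := hi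
  simp only [Set.mem_singleton_iff, mem_filter, hi', true_and]
  rcases hω i with h | h
  · simp [h]
  · simp [h, show (-1 : ℝ) ≠ 1 by norm_num]

lemma series_close {l η ρ : ℝ} (h0 : 0 < l) (hlη : l ≤ η) (hηρ : η ≤ ρ) (hρ : ρ < 1) (n : ℕ)
    (hη : η ≤ l + η ^ n) (w : Finset ℕ) (ω : ℕ → ℝ) (hω : ∀ k, ω k = 1 ∨ ω k = -1)
    (hc : ω ∈ cyl n w) :
    |∑' k, ω k * l ^ k - ∑ i ∈ range n, (if i ∈ w then (1 : ℝ) else -1) * η ^ i| ≤
      (1 / (1 - l) + 1 / ((1 - ρ) * (1 - l))) * η ^ n := by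
  have h1 : l < 1 := by linarith
  have hη0 : 0 < η := by linarith
  have hη1 : η < 1 := by linarith
  have hs := (summable_sign' h0 h1 ω hω).sum_add_tsum_nat_add n
  have e1 : ∑ i ∈ range n, (if i ∈ w then (1 : ℝ) else -1) * η ^ i =
      ∑ i ∈ range n, ω i * η ^ i := by
    refine sum_congr rfl fun i hi => ?_
    have := hc i hi
    simp only [Set.mem_singleton_iff] at this
    rw [this]
  have e2 : ∑' k, ω (k + n) * l ^ (k + n) = l ^ n * ∑' k, ω (k + n) * l ^ k := by
    rw [← tsum_mul_left]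
    exact tsum_congr fun k => by rw [pow_add]; ring
  have b1 : |∑' k, ω (k + n) * l ^ (k + n)| ≤ 1 / (1 - l) * η ^ n := by
    rw [e2, abs_mul, abs_of_pos (pow_pos h0 n), mul_comm]
    exact mul_le_mul (abs_tsum_sign_le' h0 h1 _ (fun k => hω _))
      (pow_le_pow_left₀ h0.le hlη n) (by positivity) (by
        have : 0 < 1 - l := by linarith
        positivity)
  have b2 : |∑ i ∈ range n, ω i * l ^ i - ∑ i ∈ range n, ω i * η ^ i| ≤
      1 / ((1 - ρ) * (1 - l)) * η ^ n := by
    rw [← sum_sub_distrib]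
    have c1 : ∀ i ∈ range n, |ω i * l ^ i - ω i * η ^ i| ≤ η ^ i - l ^ i := by
      intro i _
      rw [← mul_sub, abs_mul, abs_sign (hω i), one_mul, abs_sub_comm,
        abs_of_nonneg (sub_nonneg.mpr (pow_le_pow_left₀ h0.le hlη i))]
    refine (abs_sum_le_sum_abs _ _).trans ((sum_le_sum c1).trans ?_)
    have hsum := (hasSum_geometric_of_lt_one hη0.le hη1).sub (hasSum_geometric_of_lt_one h0.le h1)
    refine (sum_le_hasSum (range n)
      (fun i _ => sub_nonneg.mpr (pow_le_pow_left₀ h0.le hlη i)) hsum).trans ?_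
    have a1 : 0 < 1 - l := by linarith
    have a2 : 0 < 1 - η := by linarith
    have a3 : 0 < 1 - ρ := by linarith
    calc (1 - η)⁻¹ - (1 - l)⁻¹ = (η - l) / ((1 - η) * (1 - l)) := by field_simp; ring
      _ ≤ η ^ n / ((1 - ρ) * (1 - l)) := by
          gcongr
          linarith
      _ = 1 / ((1 - ρ) * (1 - l)) * η ^ n := by ring
  rw [← hs, e1]
  have e3 : ∑ i ∈ range n, ω i * l ^ i + ∑' k, ω (k + n) * l ^ (k + n) -
      ∑ i ∈ range n, ω i * η ^ i = ∑' k, ω (k + n) * l ^ (k + n) +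
      (∑ i ∈ range n, ω i * l ^ i - ∑ i ∈ range n, ω i * η ^ i) := by ring
  rw [e3, add_mul]
  exact (abs_add_le _ _).trans (add_le_add b1 b2)

end Vale.Agent.P105
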