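import Vale.Agent.P105.Dist

/-!
The recursive construction of resonant frequencies.
-/

open Real Finset

namespace Vale.Agent.P105

/-- The state of the construction. -/
structure St (β : ℝ) (α : ℂ) (A B : ℝ) (C : ℂ) (D : ℕ) (e ε μ : ℝ) : Prop where
  res : ∀ j : ℤ, ∃ n : ℤ, A * β ^ j + B * β ^ (-j) + 2 * (C * α ^ j).re = 2 * n
  A_lo : 1 ≤ |A|
  A_hi : |A| ≤ 2 * β ^ D
  B_hi : |B| ≤ 2
  C_hi : ‖C‖ ≤ ε
  marU : ∀ j : ℤ, dz (A * β ^ j) ≤ μ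
  marV : ∀ j : ℤ, dz (B * β ^ (-j)) ≤ μ
  en : ∀ s : Finset ℤ, (∀ j ∈ s, j ≤ 0) → ∑ j ∈ s, dz (A * β ^ j) ^ 2 ≤ e

variable {β : ℝ} {α : ℂ} {A B : ℝ} {C : ℂ} {D : ℕ} {e ε μ : ℝ}

lemma St.mono (h : St β α A B C D e ε μ) {e' ε' μ' : ℝ} (he : e ≤ e') (hε : ε ≤ ε')
    (hμ : μ ≤ μ') : St β α A B C D e' ε' μ' :=
  ⟨h.res, h.A_lo, h.A_hi, h.B_hi, h.C_hi.trans hε, fun j => (h.marU j).trans hμ,
    fun j => (h.marV j).trans hμ, fun s hs => (h.en s hs).trans he⟩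

lemma St.e_nonneg (h : St β α A B C D e ε μ) : 0 ≤ e := by
  simpa using h.en ∅ (by simp)

lemma St.eps_nonneg (h : St β α A B C D e ε μ) : 0 ≤ ε := (norm_nonneg _).trans h.C_hi

lemma abs_re_le (hα : ‖α‖ = 1) (C : ℂ) (j : ℤ) : |2 * (C * α ^ j).re| ≤ 2 * ‖C‖ := by
  rw [abs_mul, abs_two]
  have := Complex.abs_re_le_norm (C * α ^ j)
  rw [norm_mul, norm_zpow, hα, one_zpow, mul_one] at this
  linarith

lemma absU_le (hβ : 1 < β) (hA : |A| ≤ 2 * β ^ D) (j : ℤ) :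
    |A * β ^ j| ≤ 2 * β ^ ((D : ℤ) + j) := by
  have hβ0 : 0 < β := by linarith
  rw [abs_mul, abs_of_pos (zpow_pos hβ0 j), zpow_add₀ hβ0.ne', zpow_natCast, ← mul_assoc]
  exact mul_le_mul_of_nonneg_right hA (zpow_pos hβ0 j).le

lemma absV_le (hβ : 1 < β) (hB : |B| ≤ 2) (j : ℤ) : |B * β ^ (-j)| ≤ 2 * β ^ (-j) := by
  have hβ0 : 0 < β := by linarith
  rw [abs_mul, abs_of_pos (zpow_pos hβ0 _)]
  exact mul_le_mul_of_nonneg_right hB (zpow_pos hβ0 _).le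

lemma dzU_le_dzV (hα : ‖α‖ = 1)
    (res : ∀ j : ℤ, ∃ n : ℤ, A * β ^ j + B * β ^ (-j) + 2 * (C * α ^ j).re = 2 * n) (j : ℤ) :
    dz (A * β ^ j) ≤ dz (B * β ^ (-j)) + 2 * ‖C‖ := by
  obtain ⟨n, hn⟩ := res j
  have := dz_le_of_neg (A * β ^ j) (B * β ^ (-j)) (-(2 * (C * α ^ j).re)) (2 * n)
    (by push_cast; linarith)
  rw [abs_neg] at this
  linarith [abs_re_le hα C j]

lemma dzV_le_dzU (hα : ‖α‖ = 1)
    (res : ∀ j : ℤ, ∃ n : ℤ, A * β ^ j + B * β ^ (-j) + 2 * (C * α ^ j).re = 2 * n) (j : ℤ) :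
    dz (B * β ^ (-j)) ≤ dz (A * β ^ j) + 2 * ‖C‖ := by
  obtain ⟨n, hn⟩ := res j
  have := dz_le_of_neg (B * β ^ (-j)) (A * β ^ j) (-(2 * (C * α ^ j).re)) (2 * n)
    (by push_cast; linarith)
  rw [abs_neg] at this
  linarith [abs_re_le hα C j]

lemma St.tail (hβ : 1 < β) (hα : ‖α‖ = 1) (h : St β α A B C D e ε μ) (j : ℤ) :
    dz (A * β ^ j) ≤ 2 * β ^ (-j) + 2 * ε := by
  have h1 := dzU_le_dzV hα h.res j
  have h2 := dz_le_abs (B * β ^ (-j))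
  have h3 := absV_le hβ h.B_hi j
  linarith [h.C_hi]

lemma zpow_neg_le_one (hβ : 1 < β) {j : ℤ} (hj : 0 ≤ j) : β ^ (-j) ≤ 1 :=
  zpow_le_one_of_nonpos₀ hβ.le (by linarith)

lemma tail_sq (hβ : 1 < β) {j : ℤ} (hj : 0 ≤ j) (ε : ℝ) :
    (2 * β ^ (-j) + 2 * ε) ^ 2 ≤ 8 * β ^ (-j) + 8 * ε ^ 2 := by
  have h1 := zpow_neg_le_one hβ hj
  have h2 : 0 < β ^ (-j) := zpow_pos (by linarith) _
  nlinarith [sq_nonneg (β ^ (-j) - ε)]

lemma St.en_ext (hβ : 1 < β) (hα : ‖α‖ = 1) (h : St β α A B C D e ε μ) (J : ℕ)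
    (s : Finset ℤ) (hs : ∀ j ∈ s, j ≤ J) :
    ∑ j ∈ s, dz (A * β ^ j) ^ 2 ≤ e + 8 * (β / (β - 1)) + 8 * ε ^ 2 * J := by
  rw [← sum_filter_add_sum_filter_not s (fun j => j ≤ 0)]
  have h1 := h.en (s.filter fun j => j ≤ 0) (fun j hj => (mem_filter.mp hj).2)
  set t := s.filter (fun j => ¬ j ≤ 0) with ht
  have h2 : ∑ j ∈ t, dz (A * β ^ j) ^ 2 ≤ ∑ j ∈ t, (8 * β ^ (-j) + 8 * ε ^ 2) := by
    refine sum_le_sum fun j hj => ?_
    have hj0 : 0 ≤ j := by have := (mem_filter.mp hj).2; omega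
    exact (pow_le_pow_left₀ (dz_nonneg _) (h.tail hβ hα j) 2).trans (tail_sq hβ hj0 ε)
  have h3 := sum_zpow_neg_le hβ t 0 (fun j hj => by have := (mem_filter.mp hj).2; omega)
  have h4 : (t.card : ℝ) ≤ J := by
    have : t ⊆ Ioc (0 : ℤ) J := by
      intro j hj
      have h5 := mem_filter.mp hj
      have h6 := hs j h5.1
      have h7 := h5.2
      rw [mem_Ioc]; omega
    have h8 := card_le_card this
    simp only [Int.card_Ioc, sub_zero, Int.toNat_natCast] at h8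
    exact_mod_cast h8
  rw [sum_add_distrib, ← mul_sum, sum_const, nsmul_eq_mul] at h2
  simp only [neg_zero, zpow_zero, one_mul] at h3
  have h5 : (t.card : ℝ) * (8 * ε ^ 2) ≤ J * (8 * ε ^ 2) :=
    mul_le_mul_of_nonneg_right h4 (by positivity)
  linarith

lemma add_sq_le (x y : ℝ) : (x + y) ^ 2 ≤ 5 / 4 * x ^ 2 + 5 * y ^ 2 := by
  nlinarith [sq_nonneg (x - 4 * y)]

lemma res_step (hβ : 1 < β) (hα : ‖α‖ = 1)
    (res : ∀ j : ℤ, ∃ n : ℤ, A * β ^ j + B * β ^ (-j) + 2 * (C * α ^ j).re = 2 * n) (q : ℕ) :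
    ∀ j : ℤ, ∃ n : ℤ, A * (β ^ q - 1) * β ^ j + B * ((β ^ q)⁻¹ - 1) * β ^ (-j)
      + 2 * (C * (α ^ q - 1) * α ^ j).re = 2 * n := by
  intro j
  have hβ0 : β ≠ 0 := by linarith
  have hα0 : α ≠ 0 := by
    intro h; rw [h] at hα; simp at hα
  obtain ⟨n, hn⟩ := res j
  obtain ⟨m, hm⟩ := res (j + q)
  refine ⟨m - n, ?_⟩
  have e1 : β ^ (j + q) = β ^ j * β ^ q := by rw [zpow_add₀ hβ0, zpow_natCast]
  have e2 : β ^ (-(j + q)) = β ^ (-j) * (β ^ q)⁻¹ := by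
    rw [neg_add, zpow_add₀ hβ0, zpow_neg β q, zpow_natCast]
  have e3 : C * (α ^ q - 1) * α ^ j = C * α ^ (j + q) - C * α ^ j := by
    rw [zpow_add₀ hα0, zpow_natCast]; ring
  rw [e1, e2] at hm
  rw [e3, Complex.sub_re]
  push_cast
  linarith

lemma St.step (hβ : 1 < β) (hα : ‖α‖ = 1) (h : St β α A B C D e ε μ) (q g : ℕ)
    (hq : D + 2 * g ≤ q) (h2 : 2 ≤ β ^ q) {η : ℝ} (hη : ‖α ^ q - 1‖ ≤ η) :
    St β α (A * (β ^ q - 1)) (B * ((β ^ q)⁻¹ - 1)) (C * (α ^ q - 1)) (D + q)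
      (5 / 2 * e + 70 * (β / (β - 1)) + 50 * ε ^ 2 * q) (ε * η)
      (μ + 2 * β ^ (-(g : ℤ)) + 2 * (ε * η)) := by
  have hβ0 : 0 < β := by linarith
  have hres := res_step hβ hα h.res q
  have hC : ‖C * (α ^ q - 1)‖ ≤ ε * η := by
    rw [norm_mul]
    exact mul_le_mul h.C_hi hη (norm_nonneg _) h.eps_nonneg
  have hεη : 0 ≤ ε * η := (norm_nonneg _).trans hC
  have eU : ∀ j : ℤ, A * (β ^ q - 1) * β ^ j = A * β ^ (j + q) - A * β ^ j := by
    intro j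
    rw [zpow_add₀ hβ0.ne', zpow_natCast]; ring
  have eV : ∀ j : ℤ, B * ((β ^ q)⁻¹ - 1) * β ^ (-j) = B * β ^ (-(j + q)) - B * β ^ (-j) := by
    intro j
    rw [neg_add, zpow_add₀ hβ0.ne', zpow_neg β q, zpow_natCast]; ring
  have left : ∀ j : ℤ, j ≤ -((D : ℤ) + g) →
      dz (A * (β ^ q - 1) * β ^ j) ≤ μ + 2 * β ^ (-(g : ℤ)) := by
    intro j hj
    have h1 := dz_le_of (A * (β ^ q - 1) * β ^ j) (A * β ^ (j + q)) (-(A * β ^ j)) 0
      (by rw [eU]; push_cast; ring)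
    rw [abs_neg] at h1
    have h3 := absU_le hβ h.A_hi j
    have h4 : β ^ ((D : ℤ) + j) ≤ β ^ (-(g : ℤ)) := zpow_le_zpow_right₀ hβ.le (by omega)
    linarith [h.marU (j + q)]
  have right : ∀ j : ℤ, -((D : ℤ) + g) < j →
      dz (B * ((β ^ q)⁻¹ - 1) * β ^ (-j)) ≤ μ + 2 * β ^ (-(g : ℤ)) := by
    intro j hj
    have h1 := dz_le_of_neg (B * ((β ^ q)⁻¹ - 1) * β ^ (-j)) (B * β ^ (-j))
      (B * β ^ (-(j + q))) 0 (by rw [eV]; push_cast; ring)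
    have h3 := absV_le hβ h.B_hi (j + q)
    have h4 : β ^ (-(j + q)) ≤ β ^ (-(g : ℤ)) := zpow_le_zpow_right₀ hβ.le (by omega)
    linarith [h.marV j]
  refine ⟨hres, ?_, ?_, ?_, hC, ?_, ?_, ?_⟩
  · rw [abs_mul, abs_of_pos (by linarith : 0 < β ^ q - 1)]
    nlinarith [h.A_lo]
  · rw [abs_mul, abs_of_pos (by linarith : 0 < β ^ q - 1), pow_add, ← mul_assoc]
    exact mul_le_mul h.A_hi (by linarith) (by linarith) (by positivity)
  · rw [abs_mul]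
    have h1 : 0 < (β ^ q)⁻¹ := by positivity
    have h3 : (β ^ q)⁻¹ ≤ 1 := inv_le_one_of_one_le₀ (by linarith)
    have h4 : |(β ^ q)⁻¹ - 1| ≤ 1 := by rw [abs_le]; constructor <;> linarith
    nlinarith [h.B_hi, abs_nonneg B, abs_nonneg ((β ^ q)⁻¹ - 1)]
  · intro j
    rcases le_or_gt j (-((D : ℤ) + g)) with hj | hj
    · linarith [left j hj]
    · linarith [right j hj, dzU_le_dzV hα hres j]
  · intro j
    rcases le_or_gt j (-((D : ℤ) + g)) with hj | hj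
    · linarith [left j hj, dzV_le_dzU hα hres j]
    · linarith [right j hj]
  · intro s hs
    set G := β / (β - 1) with hG
    rw [← sum_filter_add_sum_filter_not s (fun j => j ≤ -(D : ℤ))]
    set s₁ := s.filter (fun j => j ≤ -(D : ℤ)) with hs₁
    set s₂ := s.filter (fun j => ¬ j ≤ -(D : ℤ)) with hs₂
    have b1 : ∑ j ∈ s₁, dz (A * (β ^ q - 1) * β ^ j) ^ 2 ≤
        ∑ j ∈ s₁, (5 / 4 * dz (A * β ^ (j + q)) ^ 2 + 20 * β ^ ((D : ℤ) + j)) := by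
      refine sum_le_sum fun j hj => ?_
      have hj' : j ≤ -(D : ℤ) := (mem_filter.mp hj).2
      have h1 := dz_le_of (A * (β ^ q - 1) * β ^ j) (A * β ^ (j + q)) (-(A * β ^ j)) 0
        (by rw [eU]; push_cast; ring)
      rw [abs_neg] at h1
      have h3 := absU_le hβ h.A_hi j
      have h4 : β ^ ((D : ℤ) + j) ≤ 1 := zpow_le_one_of_nonpos₀ hβ.le (by omega)
      have h5 : 0 < β ^ ((D : ℤ) + j) := zpow_pos hβ0 _
      have h6 : dz (A * (β ^ q - 1) * β ^ j) ≤ dz (A * β ^ (j + q)) + 2 * β ^ ((D : ℤ) + j) := by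
        linarith
      refine (pow_le_pow_left₀ (dz_nonneg _) h6 2).trans ((add_sq_le _ _).trans ?_)
      nlinarith
    have b2 : ∑ j ∈ s₂, dz (A * (β ^ q - 1) * β ^ j) ^ 2 ≤
        ∑ j ∈ s₂, (5 / 4 * dz (A * β ^ j) ^ 2 + 40 * β ^ (-(j + q)) + 40 * ε ^ 2) := by
      refine sum_le_sum fun j hj => ?_
      have hj' : ¬ j ≤ -(D : ℤ) := (mem_filter.mp hj).2
      have h1 : dz (A * (β ^ q - 1) * β ^ j) ≤ dz (A * β ^ j) + (2 * β ^ (-(j + q)) + 2 * ε) := by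
        rw [eU]
        linarith [dz_sub_le (A * β ^ (j + q)) (A * β ^ j), h.tail hβ hα (j + q)]
      refine (pow_le_pow_left₀ (dz_nonneg _) h1 2).trans ((add_sq_le _ _).trans ?_)
      have h3 := tail_sq hβ (j := j + q) (by omega) ε
      linarith
    have c1 : ∑ j ∈ s₁, dz (A * β ^ (j + q)) ^ 2 ≤ e + 8 * G + 8 * ε ^ 2 * q := by
      have := h.en_ext hβ hα q (s₁.image fun j => j + q) (by
        intro j hj
        obtain ⟨i, hi, rfl⟩ := mem_image.mp hj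
        have : i ≤ -(D : ℤ) := (mem_filter.mp hi).2
        omega)
      rwa [sum_image (fun a _ b _ hab => add_right_cancel hab)] at this
    have c2 : ∑ j ∈ s₁, β ^ ((D : ℤ) + j) ≤ G := by
      have := sum_zpow_le hβ (s₁.image fun j => (D : ℤ) + j) 0 (by
        intro j hj
        obtain ⟨i, hi, rfl⟩ := mem_image.mp hj
        have : i ≤ -(D : ℤ) := (mem_filter.mp hi).2
        omega)
      rwa [sum_image (fun a _ b _ hab => add_left_cancel hab), zpow_zero, one_mul] at this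
    have c3 : ∑ j ∈ s₂, dz (A * β ^ j) ^ 2 ≤ e :=
      h.en s₂ (fun j hj => hs j (mem_filter.mp hj).1)
    have c4 : ∑ j ∈ s₂, β ^ (-(j + q)) ≤ G := by
      have := sum_zpow_neg_le hβ (s₂.image fun j => j + q) 0 (by
        intro j hj
        obtain ⟨i, hi, rfl⟩ := mem_image.mp hj
        have : ¬ i ≤ -(D : ℤ) := (mem_filter.mp hi).2
        omega)
      rwa [sum_image (fun a _ b _ hab => add_right_cancel hab), neg_zero, zpow_zero,
        one_mul] at this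
    have c5 : (s₂.card : ℝ) ≤ q := by
      have : s₂ ⊆ Ioc (-(q : ℤ)) 0 := by
        intro j hj
        have h5 := mem_filter.mp hj
        have h6 := hs j h5.1
        have h7 := h5.2
        rw [mem_Ioc]; omega
      have h8 := card_le_card this
      simp only [Int.card_Ioc, sub_neg_eq_add, zero_add, Int.toNat_natCast] at h8
      exact_mod_cast h8
    rw [sum_add_distrib, ← mul_sum, ← mul_sum] at b1
    rw [sum_add_distrib, sum_add_distrib, ← mul_sum, ← mul_sum, sum_const, nsmul_eq_mul] at b2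
    have c6 : (s₂.card : ℝ) * (40 * ε ^ 2) ≤ q * (40 * ε ^ 2) :=
      mul_le_mul_of_nonneg_right c5 (by positivity)
    linarith

end Vale.Agent.P105
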