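import Vale.Agent.P105.Prob

/-!
The second moment test: from good states of the construction to singularity.
-/

open Real Finset Filter Topology MeasureTheory ProbabilityTheory

namespace Vale.Agent.P105

variable {β : ℝ} {α : ℂ} {A B : ℝ} {C : ℂ} {D : ℕ} {e ε μ : ℝ}

lemma abs_sign {x : ℝ} (hx : x = 1 ∨ x = -1) : |x| = 1 := by
  rcases hx with h | h <;> simp [h]

lemma summable_sign (hβ : 1 < β) (x : ℕ → ℝ) (hx : ∀ k, x k = 1 ∨ x k = -1) :
    Summable fun k => x k * (β⁻¹) ^ k := by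
  have hr : β⁻¹ < 1 := inv_lt_one_of_one_lt₀ hβ
  have hr0 : 0 ≤ β⁻¹ := by positivity
  refine Summable.of_norm_bounded (summable_geometric_of_lt_one hr0 hr) fun k => ?_
  rw [Real.norm_eq_abs, abs_mul, abs_sign (hx k), one_mul, abs_of_nonneg (by positivity)]

lemma abs_tsum_sign_le (hβ : 1 < β) (x : ℕ → ℝ) (hx : ∀ k, x k = 1 ∨ x k = -1) :
    |∑' k, x k * (β⁻¹) ^ k| ≤ β / (β - 1) := by
  have hr : β⁻¹ < 1 := inv_lt_one_of_one_lt₀ hβ
  have hr0 : 0 ≤ β⁻¹ := by positivity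
  have h := tsum_of_norm_bounded (f := fun k => x k * (β⁻¹) ^ k)
    (hasSum_geometric_of_lt_one hr0 hr) (fun k => by
      rw [Real.norm_eq_abs, abs_mul, abs_sign (hx k), one_mul, abs_of_nonneg (by positivity)])
  rw [Real.norm_eq_abs] at h
  refine h.trans (le_of_eq ?_)
  have : β - 1 ≠ 0 := by linarith
  field_simp

lemma St.approx (hβ : 1 < β) (hα : ‖α‖ = 1) (h : St β α A B C D e ε μ) (x : ℕ → ℝ)
    (hx : ∀ k, x k = 1 ∨ x k = -1) (w N : ℕ) :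
    |cos (π * A * β ^ (w + N) * ∑' k, x k * (β⁻¹) ^ k) -
      cos (∑ k ∈ Ico N (N + (D + 2 * w + 1)), π * (A * β ^ (((w + N : ℕ) : ℤ) - k)) * x k)| ≤
      π * (4 * (β / (β - 1)) * β ^ (-(w : ℤ)) + 2 * ε * N) := by
  have hβ0 : 0 < β := by linarith
  set G := β / (β - 1) with hG
  have hG0 : 0 < G := div_pos hβ0 (by linarith)
  set n : ℤ := ((w + N : ℕ) : ℤ) with hn
  set N' := N + (D + 2 * w + 1) with hN'
  have hsplit := (summable_sign hβ x hx).sum_add_tsum_nat_add N'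
  set tl := ∑' k, x (k + N') * (β⁻¹) ^ (k + N') with htl
  have htl1 : tl = (β⁻¹) ^ N' * ∑' k, x (k + N') * (β⁻¹) ^ k := by
    rw [htl, ← tsum_mul_left]
    exact tsum_congr fun k => by rw [pow_add]; ring
  have htl2 : |tl| ≤ (β⁻¹) ^ N' * G := by
    rw [htl1, abs_mul, abs_of_nonneg (by positivity)]
    exact mul_le_mul_of_nonneg_left (abs_tsum_sign_le hβ _ (fun k => hx _)) (by positivity)
  have hterm : ∀ k : ℕ, A * β ^ (w + N) * (x k * (β⁻¹) ^ k) = A * β ^ (n - k) * x k := by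
    intro k
    rw [zpow_sub₀ hβ0.ne', hn, zpow_natCast, zpow_natCast, inv_pow]
    field_simp
  have hnear : ∀ k : ℕ, ∃ m : ℤ, |A * β ^ (n - k) * x k - 2 * m| ≤ 2 * β ^ (-(n - k)) + 2 * ε := by
    intro k
    obtain ⟨m, hm⟩ := h.res (n - k)
    have h1 := absV_le hβ h.B_hi (n - k)
    have h2 := abs_re_le hα C (n - k)
    have h3 := abs_add_le (B * β ^ (-(n - k))) (2 * (C * α ^ (n - k)).re)
    have h4 := h.C_hi
    rcases hx k with hk | hk
    · refine ⟨m, ?_⟩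
      have : A * β ^ (n - k) * x k - 2 * m =
          -(B * β ^ (-(n - k)) + 2 * (C * α ^ (n - k)).re) := by rw [hk]; linarith
      rw [this, abs_neg]; linarith
    · refine ⟨-m, ?_⟩
      have : A * β ^ (n - k) * x k - 2 * ((-m : ℤ) : ℝ) =
          (B * β ^ (-(n - k)) + 2 * (C * α ^ (n - k)).re) := by rw [hk]; push_cast; linarith
      rw [this]; linarith
  choose m hm using hnear
  have hnear2 : |∑ k ∈ range N, (A * β ^ (n - k) * x k - 2 * m k)| ≤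
      2 * G * β ^ (-(w : ℤ)) + 2 * ε * N := by
    refine (abs_sum_le_sum_abs _ _).trans ((sum_le_sum fun k _ => hm k).trans ?_)
    rw [sum_add_distrib, ← mul_sum, sum_const, card_range, nsmul_eq_mul]
    have h1 := sum_zpow_neg_le hβ ((range N).image fun k : ℕ => n - k) w (by
      intro j hj
      obtain ⟨i, hi, rfl⟩ := mem_image.mp hj
      have := mem_range.mp hi
      omega)
    rw [sum_image (fun a _ b _ hab => by simpa using hab)] at h1
    linarith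
  have hfar : |A * β ^ (w + N) * tl| ≤ 2 * G * β ^ (-(w : ℤ)) := by
    rw [abs_mul, abs_mul, abs_of_pos (pow_pos hβ0 _)]
    have h1 : β ^ D * β ^ (w + N) * (β⁻¹) ^ N' ≤ β ^ (-(w : ℤ)) := by
      have : β ^ D * β ^ (w + N) * (β⁻¹) ^ N' = β ^ (-(w : ℤ) - 1) := by
        rw [inv_pow, ← zpow_natCast, ← zpow_natCast, ← zpow_natCast, ← zpow_neg,
          ← zpow_add₀ hβ0.ne', ← zpow_add₀ hβ0.ne']
        congr 1
        rw [hN']; push_cast; ring
      rw [this]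
      exact zpow_le_zpow_right₀ hβ.le (by omega)
    calc |A| * β ^ (w + N) * |tl| ≤ (2 * β ^ D) * β ^ (w + N) * ((β⁻¹) ^ N' * G) := by
          gcongr
          exact h.A_hi
      _ = 2 * G * (β ^ D * β ^ (w + N) * (β⁻¹) ^ N') := by ring
      _ ≤ 2 * G * β ^ (-(w : ℤ)) := by gcongr
  set Wd := ∑ k ∈ Ico N N', π * (A * β ^ (n - k)) * x k with hWd
  set e1 := ∑ k ∈ range N, (A * β ^ (n - k) * x k - 2 * m k) with he1
  have key : π * A * β ^ (w + N) * ∑' k, x k * (β⁻¹) ^ k =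
      (Wd + π * (e1 + A * β ^ (w + N) * tl)) + ((∑ k ∈ range N, m k : ℤ) : ℝ) * (2 * π) := by
    rw [← hsplit, ← sum_range_add_sum_Ico _ (show N ≤ N' by omega)]
    have a1 : A * β ^ (w + N) * ∑ k ∈ range N, x k * (β⁻¹) ^ k =
        e1 + 2 * ((∑ k ∈ range N, m k : ℤ) : ℝ) := by
      rw [he1, mul_sum, sum_sub_distrib, sum_congr rfl (fun k _ => hterm k)]
      push_cast
      rw [← mul_sum]; ring
    have a2 : π * (A * β ^ (w + N) * ∑ k ∈ Ico N N', x k * (β⁻¹) ^ k) = Wd := by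
      rw [hWd, mul_sum, mul_sum]
      exact sum_congr rfl fun k _ => by rw [hterm k]; ring
    rw [← a2]
    linear_combination π * a1
  rw [key, cos_add_int_mul_two_pi]
  refine (abs_cos_sub_cos_le _ _).trans ?_
  rw [add_sub_cancel_left, abs_mul, abs_of_pos pi_pos]
  refine mul_le_mul_of_nonneg_left ?_ pi_pos.le
  linarith [abs_add_le e1 (A * β ^ (w + N) * tl)]

lemma St.window (hβ : 1 < β) (hα : ‖α‖ = 1) (h : St β α A B C D e ε μ) {K : ℝ} (hK : 0 ≤ K)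
    (hcos : ∀ x : ℝ, dz x ≤ μ → exp (-(K * dz x ^ 2)) ≤ |cos (π * x)|) (w l : ℕ) :
    exp (-(K * (e + 8 * (β / (β - 1)) + 8 * ε ^ 2 * w))) ≤
      |∏ r ∈ range l, cos (π * (A * β ^ ((w : ℤ) - r)))| := by
  rw [abs_prod]
  have h1 := h.en_ext hβ hα w ((range l).image fun r : ℕ => (w : ℤ) - r) (by
    intro j hj
    obtain ⟨i, hi, rfl⟩ := mem_image.mp hj
    omega)
  rw [sum_image (fun a _ b _ hab => by simpa using hab)] at h1
  calc exp (-(K * (e + 8 * (β / (β - 1)) + 8 * ε ^ 2 * w)))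
      ≤ exp (∑ r ∈ range l, -(K * dz (A * β ^ ((w : ℤ) - r)) ^ 2)) := by
        rw [exp_le_exp, sum_neg_distrib, ← mul_sum, neg_le_neg_iff]
        exact mul_le_mul_of_nonneg_left h1 hK
    _ = ∏ r ∈ range l, exp (-(K * dz (A * β ^ ((w : ℤ) - r)) ^ 2)) := exp_sum _ _
    _ ≤ _ := prod_le_prod (fun r _ => (exp_pos _).le) (fun r _ => hcos _ (h.marU _))

lemma freq_sep (hβ : 1 < β) (hA : 1 ≤ |A|) (w l M : ℕ) (hl : 0 < l)
    (hM : (M : ℝ) ≤ β ^ w * (β - 1)) (i k : ℕ) (hik : i ≠ k) :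
    (M : ℝ) ≤ |π * A * β ^ (w + i * l) - π * A * β ^ (w + k * l)| ∧
      (M : ℝ) ≤ |π * A * β ^ (w + i * l) + π * A * β ^ (w + k * l)| := by
  have hβ0 : 0 < β := by linarith
  have key : ∀ i k : ℕ, i < k → (M : ℝ) ≤ β ^ (w + k * l) - β ^ (w + i * l) := by
    intro i k hik
    have h1 : β ^ (w + i * l + 1) ≤ β ^ (w + k * l) := pow_le_pow_right₀ hβ.le (by nlinarith)
    have h2 : β ^ w ≤ β ^ (w + i * l) := pow_le_pow_right₀ hβ.le (by omega)
    rw [pow_succ] at h1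
    nlinarith
  have h1 : (M : ℝ) ≤ |β ^ (w + i * l) - β ^ (w + k * l)| := by
    rcases lt_or_gt_of_ne hik with h | h
    · rw [abs_sub_comm]; exact (key i k h).trans (le_abs_self _)
    · exact (key k i h).trans (le_abs_self _)
  have h2 : (M : ℝ) ≤ |β ^ (w + i * l) + β ^ (w + k * l)| := by
    refine h1.trans ?_
    have a1 : 0 < β ^ (w + i * l) := by positivity
    have a2 : 0 < β ^ (w + k * l) := by positivity
    rw [abs_of_pos (by positivity : 0 < β ^ (w + i * l) + β ^ (w + k * l)), abs_le]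
    constructor <;> linarith
  have h3 : 1 ≤ |π * A| := by
    rw [abs_mul, abs_of_pos pi_pos]
    nlinarith [pi_gt_three]
  have hM0 : (0 : ℝ) ≤ M := Nat.cast_nonneg M
  constructor
  · rw [← mul_sub, abs_mul]; nlinarith
  · rw [← mul_add, abs_mul]; nlinarith

variable {Ω : Type*} [MeasurableSpace Ω] {P : Measure Ω} {X : ℕ → Ω → ℝ}

lemma St.core [IsProbabilityMeasure P] (hm : ∀ k, Measurable (X k))
    (hind : iIndepFun X P) (hpm : ∀ᵐ ω ∂P, ∀ k, X k ω = 1 ∨ X k ω = -1)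
    (hmean : ∀ k, ∫ ω, X k ω ∂P = 0)
    (hβ : 1 < β) (hα : ‖α‖ = 1) (h : St β α A B C D e ε μ) {K : ℝ} (hK : 0 ≤ K)
    (hcos : ∀ x : ℝ, dz x ≤ μ → exp (-(K * dz x ^ 2)) ≤ |cos (π * x)|) (w M : ℕ) (hM0 : 0 < M)
    (a₀ : ℝ) (ha₀ : 0 < a₀)
    (h1 : a₀ ≤ exp (-(K * (e + 8 * (β / (β - 1)) + 8 * ε ^ 2 * w))))
    (h2 : (M : ℝ) ≤ β ^ w * (β - 1))
    (h3 : π * (4 * (β / (β - 1)) * β ^ (-(w : ℤ)) + 2 * ε * (M * (D + 2 * w + 1))) ≤ a₀ / 4) :
    ∃ T : Set ℝ, MeasurableSet T ∧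
      volume T ≤ ENNReal.ofReal (4 * (2 * (β / (β - 1) + 1) + 2) / (M * a₀ ^ 2)) ∧
      P {ω | (∑' k, X k ω * (β⁻¹) ^ k) ∉ T} ≤ ENNReal.ofReal (16 / (M * a₀ ^ 2)) := by
  have hβ0 : 0 < β := by linarith
  have hM' : (0 : ℝ) < M := by exact_mod_cast hM0
  set G := β / (β - 1) with hG
  have hG0 : 0 < G := div_pos hβ0 (by linarith)
  set l := D + 2 * w + 1 with hl
  have hl0 : 0 < l := by omega
  set f : ℕ → ℝ := fun i => π * A * β ^ (w + i * l) with hf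
  set a := ∏ r ∈ range l, cos (π * (A * β ^ ((w : ℤ) - r))) with ha
  have haa : a₀ ≤ |a| := h1.trans (h.window hβ hα hK hcos w l)
  refine ⟨{x : ℝ | M * a₀ / 2 ≤ |∑ i ∈ range M, cos (f i * x)|} ∩ Set.Ioc (-(G + 1)) (G + 1),
    ?_, ?_, ?_⟩
  · exact (measurableSet_le measurable_const (by fun_prop)).inter measurableSet_Ioc
  · refine (volume_large_le f M hM0 (G + 1) (M * a₀ / 2) (by linarith) (by positivity)
      (fun i k hik => freq_sep hβ h.A_lo w l M hl0 h2 i k hik)).trans (le_of_eq ?_)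
    congr 1
    field_simp
    norm_num
  · have hdev := prob_dev_le hm hind hpm hmean (fun i => Ico (i * l) (i * l + l))
      (by
        intro i k hik
        rw [disjoint_left]
        intro j hj hj'
        rw [mem_Ico] at hj hj'
        rcases lt_or_gt_of_ne hik with h | h
        · have : (i + 1) * l ≤ k * l := Nat.mul_le_mul_right l h
          nlinarith [hj.2, hj'.1]
        · have : (k + 1) * l ≤ i * l := Nat.mul_le_mul_right l h
          nlinarith [hj.1, hj'.2])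
      (fun i k => π * (A * β ^ (((w + i * l : ℕ) : ℤ) - k))) a
      (by
        intro i
        rw [prod_Ico_eq_prod_range, Nat.add_sub_cancel_left, ha]
        refine prod_congr rfl fun r _ => ?_
        congr 4
        push_cast; ring) M (M * a₀ / 4) (by positivity)
    have e16 : (M : ℝ) / (M * a₀ / 4) ^ 2 = 16 / (M * a₀ ^ 2) := by field_simp; norm_num
    rw [e16] at hdev
    refine le_trans (measure_mono_ae ?_) hdev
    filter_upwards [hpm] with ω hω hT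
    by_contra hcon
    apply hT
    replace hcon := not_le.mp hcon
    set y := ∑' k, X k ω * (β⁻¹) ^ k with hy
    have hyG : |y| ≤ G := abs_tsum_sign_le hβ (fun k => X k ω) hω
    refine ⟨?_, ?_⟩
    · simp only [Set.mem_ofPred_eq]
      set Y : ℕ → ℝ := fun i => cos (∑ k ∈ Ico (i * l) (i * l + l),
        π * (A * β ^ (((w + i * l : ℕ) : ℤ) - k)) * X k ω) with hY
      have b1 : ∀ i ∈ range M, |cos (f i * y) - Y i| ≤ a₀ / 4 := by
        intro i hi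
        refine (h.approx hβ hα (fun k => X k ω) hω w (i * l)).trans (le_trans ?_ h3)
        have hi' : ((i * l : ℕ) : ℝ) ≤ M * (D + 2 * w + 1) := by
          have : i * l ≤ M * l := Nat.mul_le_mul_right l (mem_range.mp hi).le
          have h5 : ((i * l : ℕ) : ℝ) ≤ ((M * l : ℕ) : ℝ) := by exact_mod_cast this
          refine h5.trans (le_of_eq ?_)
          rw [hl]; push_cast; ring
        have := h.eps_nonneg
        gcongr
      have b2 : |∑ i ∈ range M, cos (f i * y) - ∑ i ∈ range M, Y i| ≤ M * a₀ / 4 := by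
        rw [← sum_sub_distrib]
        refine (abs_sum_le_sum_abs _ _).trans ((sum_le_sum b1).trans (le_of_eq ?_))
        rw [sum_const, card_range, nsmul_eq_mul]; ring
      have b3 : M * a₀ ≤ |M * a| := by
        rw [abs_mul, abs_of_pos hM']; gcongr
      have b4 : |∑ i ∈ range M, Y i - M * a| < M * a₀ / 4 := hcon
      have b5 := abs_sub_abs_le_abs_sub (M * a) (∑ i ∈ range M, Y i)
      have b6 := abs_sub_abs_le_abs_sub (∑ i ∈ range M, Y i) (∑ i ∈ range M, cos (f i * y))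
      rw [abs_sub_comm] at b5 b6
      linarith
    · rw [abs_le] at hyG
      constructor <;> linarith [hyG.1, hyG.2]

lemma key_bound (ε D c H a₀ M w : ℝ) (hε0 : 0 ≤ ε) (hD0 : 0 ≤ D) (hc0 : 0 < c) (ha0 : 0 < a₀)
    (hM1 : 1 ≤ M) (hw0 : 0 ≤ w) (hwhi : w ≤ c * M + 1) (hMhi : M ≤ 2 * (H / a₀ ^ 2))
    (hsm2 : ε * (D + 1) * (256 * (2 * c + 3) * H ^ 2) ≤ a₀ ^ 5) :
    ε * (M * (D + 2 * w + 1)) ≤ a₀ / 64 := by
  have a1 : D + 2 * w + 1 ≤ (D + 1) * ((2 * c + 3) * M) := by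
    have : 2 * w + 1 ≤ (2 * c + 3) * M := by nlinarith
    nlinarith
  have a2 : M * M ≤ 4 * H ^ 2 / a₀ ^ 4 := by
    calc M * M ≤ (2 * (H / a₀ ^ 2)) * (2 * (H / a₀ ^ 2)) :=
          mul_le_mul hMhi hMhi (by linarith) (by linarith)
      _ = 4 * H ^ 2 / a₀ ^ 4 := by field_simp; ring
  calc ε * (M * (D + 2 * w + 1)) ≤ ε * (M * ((D + 1) * ((2 * c + 3) * M))) := by gcongr
    _ = ε * (D + 1) * (2 * c + 3) * (M * M) := by ring
    _ ≤ ε * (D + 1) * (2 * c + 3) * (4 * H ^ 2 / a₀ ^ 4) := by gcongr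
    _ = ε * (D + 1) * (256 * (2 * c + 3) * H ^ 2) / (64 * a₀ ^ 4) := by field_simp; ring
    _ ≤ a₀ ^ 5 / (64 * a₀ ^ 4) := by gcongr
    _ = a₀ / 64 := by field_simp

lemma eps_sq_w (ε D a₀ M w : ℝ) (hε0 : 0 ≤ ε) (hD0 : 0 ≤ D) (ha1 : a₀ ≤ 1)
    (hM1 : 1 ≤ M) (hw0 : 0 ≤ w) (hkey : ε * (M * (D + 2 * w + 1)) ≤ a₀ / 64) :
    ε ^ 2 * w ≤ 1 := by
  have a0 : D + 2 * w + 1 ≤ M * (D + 2 * w + 1) := le_mul_of_one_le_left (by linarith) hM1
  have a3 : ε * w ≤ 1 := by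
    have : ε * w ≤ ε * (M * (D + 2 * w + 1)) := mul_le_mul_of_nonneg_left (by linarith) hε0
    linarith
  have a4 : ε ≤ 1 := by
    have : ε * 1 ≤ ε * (M * (D + 2 * w + 1)) := mul_le_mul_of_nonneg_left (by linarith) hε0
    linarith
  calc ε ^ 2 * w = ε * (ε * w) := by ring
    _ ≤ 1 * 1 := mul_le_mul a4 a3 (by positivity) (by norm_num)
    _ = 1 := by ring

lemma exists_params (hβ : 1 < β) (G H c a₀ : ℝ) (hG0 : 0 < G) (hH1 : 1 ≤ H)
    (hc : c = 1 / (β - 1) ^ 2 + 128 * G / (β - 1)) (ha0 : 0 < a₀) (ha1 : a₀ ≤ 1) (hε0 : 0 ≤ ε)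
    (hsm2 : ε * (D + 1) * (256 * (2 * c + 3) * H ^ 2) ≤ a₀ ^ 5) :
    ∃ w M : ℕ, 0 < M ∧ H ≤ M * a₀ ^ 2 ∧ ε ^ 2 * w ≤ 1 ∧ (M : ℝ) ≤ β ^ w * (β - 1) ∧
      π * (4 * G * β ^ (-(w : ℤ)) + 2 * ε * (M * (D + 2 * w + 1))) ≤ a₀ / 4 := by
  have hb : 0 < β - 1 := by linarith
  have hc0 : 0 < c := by rw [hc]; positivity
  obtain ⟨M, hM⟩ : ∃ M : ℕ, M = ⌈H / a₀ ^ 2⌉₊ := ⟨_, rfl⟩
  have hMlo : H / a₀ ^ 2 ≤ M := by rw [hM]; exact Nat.le_ceil _
  have ha2 : a₀ ^ 2 ≤ 1 := pow_le_one₀ ha0.le ha1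
  have hHa : 1 ≤ H / a₀ ^ 2 := by
    rw [le_div_iff₀ (by positivity)]; linarith
  have hMhi : (M : ℝ) ≤ 2 * (H / a₀ ^ 2) := by
    have := Nat.ceil_lt_add_one (show 0 ≤ H / a₀ ^ 2 by positivity)
    rw [← hM] at this
    linarith
  have hM1 : (1 : ℝ) ≤ M := hHa.trans hMlo
  have hM0 : 0 < M := by exact_mod_cast (show (0 : ℝ) < M by linarith)
  have hMa : H ≤ M * a₀ ^ 2 := by rwa [div_le_iff₀ (by positivity)] at hMlo
  have hMa1 : 1 ≤ M * a₀ := by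
    have : (M : ℝ) * a₀ ^ 2 ≤ M * a₀ := by
      rw [sq, ← mul_assoc]; exact mul_le_of_le_one_right (by positivity) ha1
    linarith
  obtain ⟨w, hw⟩ : ∃ w : ℕ, w = ⌈c * M⌉₊ := ⟨_, rfl⟩
  have hwlo : c * M ≤ w := by rw [hw]; exact Nat.le_ceil _
  have hwhi : (w : ℝ) ≤ c * M + 1 := by
    have := Nat.ceil_lt_add_one (show 0 ≤ c * M by positivity)
    rw [← hw] at this
    linarith
  have hw0' : (0 : ℝ) < w := lt_of_lt_of_le (by positivity) hwlo
  have hw0 : 0 < w := by exact_mod_cast hw0'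
  have hD0 : (0 : ℝ) ≤ D := Nat.cast_nonneg D
  have hkey := key_bound ε D c H a₀ M w hε0 hD0 hc0 ha0 hM1 hw0'.le hwhi hMhi hsm2
  have hεw := eps_sq_w ε D a₀ M w hε0 hD0 ha1 hM1 hw0'.le hkey
  have hβw : (w : ℝ) * (β - 1) ≤ β ^ w := by
    have := one_add_mul_le_pow (a := β - 1) (by linarith) w
    simp only [add_sub_cancel] at this
    linarith
  have hneg := zpow_neg_le_div hβ w hw0
  refine ⟨w, M, hM0, hMa, hεw, ?_, ?_⟩
  · have a1 : 1 / (β - 1) ^ 2 * M ≤ w := by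
      refine le_trans ?_ hwlo
      have : 0 ≤ 128 * G / (β - 1) := by positivity
      rw [hc]; gcongr; linarith
    have a2 : (M : ℝ) ≤ w * (β - 1) ^ 2 := by
      rwa [one_div, inv_mul_le_iff₀ (by positivity), mul_comm] at a1
    calc (M : ℝ) ≤ w * (β - 1) * (β - 1) := by rw [mul_assoc, ← sq]; exact a2
      _ ≤ β ^ w * (β - 1) := by gcongr
  · have a1 : 128 * G / (β - 1) * M ≤ w := by
      refine le_trans ?_ hwlo
      have : 0 ≤ 1 / (β - 1) ^ 2 := by positivity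
      rw [hc]; gcongr; linarith
    have a2 : 128 * G * M ≤ w * (β - 1) := by
      rwa [div_mul_eq_mul_div, div_le_iff₀ hb] at a1
    have a3 : 4 * G * β ^ (-(w : ℤ)) ≤ a₀ / 32 := by
      calc 4 * G * β ^ (-(w : ℤ)) ≤ 4 * G * (1 / (w * (β - 1))) := by gcongr
        _ ≤ 4 * G * (1 / (128 * G * M)) := by gcongr
        _ = 1 / (32 * M) := by field_simp; norm_num
        _ ≤ a₀ / 32 := by
            rw [div_le_div_iff₀ (by positivity) (by norm_num)]; linarith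
    have a4 : 4 * G * β ^ (-(w : ℤ)) + 2 * ε * (M * (D + 2 * w + 1)) ≤ a₀ / 16 := by
      linarith
    calc π * (4 * G * β ^ (-(w : ℤ)) + 2 * ε * (M * (D + 2 * w + 1))) ≤ 4 * (a₀ / 16) :=
          mul_le_mul pi_le_four a4 (by positivity) (by norm_num)
      _ = a₀ / 4 := by ring

lemma exists_test_set [IsProbabilityMeasure P] (hm : ∀ k, Measurable (X k))
    (hind : iIndepFun X P) (hpm : ∀ᵐ ω ∂P, ∀ k, X k ω = 1 ∨ X k ω = -1)
    (hmean : ∀ k, ∫ ω, X k ω ∂P = 0)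
    (hβ : 1 < β) (hα : ‖α‖ = 1) (hμ : μ < 1 / 2)
    (hgood : ∀ K ζ : ℝ, 0 < ζ →
      ∃ (A B : ℝ) (C : ℂ) (D : ℕ) (e ε : ℝ), St β α A B C D e ε μ ∧
        ε * (D + 1) * exp (K * e) ≤ ζ) (η : ℝ) (hη : 0 < η) :
    ∃ T : Set ℝ, MeasurableSet T ∧ volume T ≤ ENNReal.ofReal η ∧
      P {ω | (∑' k, X k ω * (β⁻¹) ^ k) ∉ T} ≤ ENNReal.ofReal η := by
  have hβ0 : 0 < β := by linarith
  have hb : 0 < β - 1 := by linarith
  obtain ⟨K, hK, hcos⟩ := exists_cos_lower μ hμ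
  obtain ⟨G, hG⟩ : ∃ G : ℝ, G = β / (β - 1) := ⟨_, rfl⟩
  have hG0 : 0 < G := by rw [hG]; positivity
  obtain ⟨H, hH⟩ : ∃ H : ℝ, H = 1 + (4 * (2 * (G + 1) + 2) + 16) / η := ⟨_, rfl⟩
  have hH1 : 1 ≤ H := by
    have : 0 ≤ (4 * (2 * (G + 1) + 2) + 16) / η := by positivity
    linarith
  obtain ⟨c, hc⟩ : ∃ c : ℝ, c = 1 / (β - 1) ^ 2 + 128 * G / (β - 1) := ⟨_, rfl⟩
  have hc0 : 0 < c := by rw [hc]; positivity
  obtain ⟨A, B, C, D, e, ε, hst, hsmall⟩ := hgood (5 * K)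
    (1 / (256 * (2 * c + 3) * H ^ 2 * exp (5 * K * (8 * G + 8)))) (by positivity)
  have he0 := hst.e_nonneg
  have hε0 := hst.eps_nonneg
  obtain ⟨a₀, ha₀⟩ : ∃ a₀ : ℝ, a₀ = exp (-(K * (e + 8 * G + 8))) := ⟨_, rfl⟩
  have ha0 : 0 < a₀ := by rw [ha₀]; exact exp_pos _
  have ha1 : a₀ ≤ 1 := by
    rw [ha₀, exp_le_one_iff, neg_nonpos]; positivity
  have hsm2 : ε * (D + 1) * (256 * (2 * c + 3) * H ^ 2) ≤ a₀ ^ 5 := by
    have e1 : a₀ ^ 5 * (exp (5 * K * e) * exp (5 * K * (8 * G + 8))) = 1 := by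
      rw [ha₀, ← exp_nat_mul, ← exp_add, ← exp_add, exp_eq_one_iff]
      push_cast; ring
    rw [le_div_iff₀ (by positivity)] at hsmall
    have e2 : ε * (D + 1) * (256 * (2 * c + 3) * H ^ 2) *
        (exp (5 * K * e) * exp (5 * K * (8 * G + 8))) ≤
        a₀ ^ 5 * (exp (5 * K * e) * exp (5 * K * (8 * G + 8))) := by
      rw [e1]; linarith
    exact le_of_mul_le_mul_right e2 (by positivity)
  obtain ⟨w, M, hM0, hMa, hεw, hM2, hM3⟩ := exists_params hβ G H c a₀ hG0 hH1 hc ha0 ha1 hε0 hsm2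
  obtain ⟨T, hT, hT1, hT2⟩ := hst.core hm hind hpm hmean hβ hα hK hcos w M hM0 a₀ ha0
    (by
      rw [ha₀, exp_le_exp, neg_le_neg_iff, ← hG]
      apply mul_le_mul_of_nonneg_left _ hK
      linarith) hM2 (by rw [← hG]; exact hM3)
  rw [← hG] at hT1
  have hHη : 4 * (2 * (G + 1) + 2) + 16 ≤ η * H := by
    rw [hH, mul_add η, mul_div_cancel₀ _ hη.ne']; linarith
  have hηM : η * H ≤ η * (M * a₀ ^ 2) := by gcongr
  have hM' : (0 : ℝ) < M := by exact_mod_cast hM0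
  refine ⟨T, hT, hT1.trans (ENNReal.ofReal_le_ofReal ?_), hT2.trans (ENNReal.ofReal_le_ofReal ?_)⟩
  · rw [div_le_iff₀ (by positivity)]; linarith
  · rw [div_le_iff₀ (by positivity)]; linarith

lemma null_set_of_tests (ν : Measure ℝ) [IsProbabilityMeasure ν]
    (h : ∀ η : ℝ, 0 < η → ∃ T : Set ℝ, volume T ≤ ENNReal.ofReal η ∧ ν Tᶜ ≤ ENNReal.ofReal η) :
    ∃ N : Set ℝ, MeasurableSet N ∧ volume N = 0 ∧ ν N = 1 := by
  choose T hT1 hT2 using fun n : ℕ => h ((1 / 2) ^ n) (by positivity)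
  have hsum : ∑' n : ℕ, ENNReal.ofReal ((1 / 2 : ℝ) ^ n) ≠ ⊤ := by
    rw [← ENNReal.ofReal_tsum_of_nonneg (fun n => by positivity) summable_geometric_two]
    exact ENNReal.ofReal_ne_top
  have h1 : volume {x | ∃ᶠ n in atTop, x ∈ T n} = 0 :=
    measure_setOfPred_frequently_eq_zero (p := fun n x => x ∈ T n)
      (ne_top_of_le_ne_top hsum (ENNReal.tsum_le_tsum hT1))
  have h2 : ∀ᵐ x ∂ν, ∀ᶠ n in atTop, x ∉ (T n)ᶜ :=
    ae_eventually_notMem (ne_top_of_le_ne_top hsum (ENNReal.tsum_le_tsum hT2))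
  obtain ⟨N, hN1, hN2, hN3⟩ := exists_measurable_superset_of_null h1
  refine ⟨N, hN2, hN3, ?_⟩
  rw [← mem_ae_iff_prob_eq_one hN2]
  filter_upwards [h2] with x hx
  apply hN1
  exact (hx.mono fun n hn => by simpa using hn).frequently

theorem singular_of_trace [IsProbabilityMeasure P] (hm : ∀ k, Measurable (X k))
    (hind : iIndepFun X P) (hpm : ∀ᵐ ω ∂P, ∀ k, X k ω = 1 ∨ X k ω = -1)
    (hmean : ∀ k, ∫ ω, X k ω ∂P = 0)
    (hβ : 1 < β) (hα : ‖α‖ = 1) (hi : IsIntegral ℤ β) (hi' : IsIntegral ℤ β⁻¹)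
    (htr : ∀ j : ℤ, ∃ n : ℤ, β ^ j + β ^ (-j) + 2 * (α ^ j).re = n) :
    ∃ N : Set ℝ, MeasurableSet N ∧ volume N = 0 ∧
      P.map (fun ω => ∑' k, X k ω * (β⁻¹) ^ k) N = 1 := by
  have hy : Measurable fun ω => ∑' k, X k ω * (β⁻¹) ^ k := Measurable.tsum fun k => by fun_prop
  have := Measure.isProbabilityMeasure_map (μ := P) hy.aemeasurable
  obtain ⟨μ, hμ, hgood⟩ := exists_good hβ hα hi hi' htr
  refine null_set_of_tests _ fun η hη => ?_
  obtain ⟨T, hT, hT1, hT2⟩ := exists_test_set hm hind hpm hmean hβ hα hμ hgood η hη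
  refine ⟨T, hT1, ?_⟩
  rw [Measure.map_apply hy hT.compl]
  exact hT2

end Vale.Agent.P105
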